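import Vale.Agent.P088.R2.H794.B.Spec
import Vale.Agent.P088.H43.B.Bd

/-!
# P088, two metrics near the flat one on a smooth domain: the boundary step (row B_BD)
-/

open MeasureTheory Set Filter
open scoped ContDiff Matrix Topology

noncomputable section

namespace Vale.Agent.P088.HY.Bd

open Vale.Agent.P088.LR Vale.Agent.P088.LR.B Vale.Agent.P088.LR.B.H43 Vale.Agent.P088.H639

variable {n : ℕ} {ρ : V n → ℝ}

/-- contraction with the null vector, complex coefficient -/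
lemma contrB {β : Fin n → Fin n → ℝ} (hs : ∀ i j, β i j = β j i) {g τ : V n}
    (hβ : ∀ i, ∑ j, β i j * g j = 0) (w : ℂ) :
    ∑ i, ∑ j, (β i j : ℂ) * ((Complex.I * τ i + w * g i) *
      (starRingEnd ℂ) (Complex.I * τ j + w * g j)) =
      ((∑ i, ∑ j, β i j * (τ i * τ j) : ℝ) : ℂ) := by
  have s1 : ∀ a : V n, ∑ i, ∑ j, β i j * (a i * g j) = 0 := fun a =>
    Finset.sum_eq_zero fun i _ => by
      have h : ∑ j, β i j * (a i * g j) = a i * ∑ j, β i j * g j := by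
        rw [Finset.mul_sum]
        exact Finset.sum_congr rfl fun j _ => by ring
      rw [h, hβ i, mul_zero]
  have s2 : ∀ a : V n, ∑ i, ∑ j, β i j * (g i * a j) = 0 := fun a => by
    rw [Finset.sum_comm, ← s1 a]
    refine Finset.sum_congr rfl fun i _ => Finset.sum_congr rfl fun j _ => ?_
    rw [hs j i]; ring
  have e : ∀ i j, (β i j : ℂ) * ((Complex.I * τ i + w * g i) *
      (starRingEnd ℂ) (Complex.I * τ j + w * g j)) =
      ((β i j * (τ i * τ j) : ℝ) : ℂ) + (w * (starRingEnd ℂ) w * ((β i j * (g i * g j) : ℝ) : ℂ) +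
        (Complex.I * (starRingEnd ℂ) w * ((β i j * (τ i * g j) : ℝ) : ℂ) -
          Complex.I * w * ((β i j * (g i * τ j) : ℝ) : ℂ))) := by
    intro i j
    simp only [map_add, map_mul, Complex.conj_I, Complex.conj_ofReal]
    push_cast
    linear_combination (-(β i j : ℂ) * (τ i : ℂ) * (τ j : ℂ)) * Complex.I_sq
  simp only [e, Finset.sum_add_distrib, ← Finset.mul_sum, Finset.sum_sub_distrib,
    ← Complex.ofReal_sum]
  rw [s1 g, s1 τ, s2 τ]
  simp

/-- the estimate at a boundary point, general base -/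
lemma keyB (hρ : Dom ρ) (hQU : RowBQU) {s t : MF n} (hsm : SmM s) (hpd : ∀ x, (s x).PosDef)
    {μ c₀ : ℝ} (hμ : 0 < μ) (hE : Elp μ s) (hc₀ : 0 ≤ c₀)
    (hen : ∀ U : V n → ℂ, ContDiff ℝ ∞ U →
      ‖bl (Om ρ) (fun x => t x - s x) U (fun x => (starRingEnd ℂ) (U x))‖ ≤
        c₀ * ((∫ x in Om ρ, ∑ i, ∑ j, |t x i j - s x i j| ^ 2 * ‖pd j U x‖ ^ 2) +
          ∫ x in Om ρ, ‖dv s U x‖ ^ 2))
    {m : ℕ} {b : Fin n → Fin n → V n → ℝ} (hb : ∀ i j, ContDiff ℝ ∞ (b i j))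
    (hs : ∀ i j x, b i j x = b j i x) (hh : ∀ x i j, t x i j - s x i j = ρ x ^ m * b i j x)
    {p : V n} (hp : ρ p = 0) {τ : V n} (h2 : ∑ i, τ i ^ 2 = 1)
    (h3 : ∑ i, τ i * pd i ρ p = 0) (hbν : ∀ i, ∑ j, b i j p * pd j ρ p = 0) :
    |∑ i, ∑ j, b i j p * (τ i * τ j)| ≤
      c₀ * (2 + 2 * (n ^ 2 / μ ^ 2)) * (ρ p ^ m * ∑ i, ∑ j, b i j p ^ 2) := by
  have cb : ∀ i j, Continuous (b i j) := fun i j => (hb i j).continuous
  have cm : Continuous fun x => ρ x ^ m := hρ.sm.continuous.pow m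
  obtain ⟨β, hβ, hU'⟩ := hQU ρ hρ s hsm hpd p hp τ h2 h3
  obtain ⟨U, Z, hU, hZ, hlim0, hlim⟩ := hU' m
  set q : ℝ := ∑ i, ∑ j, b i j p * (τ i * τ j) with hq
  set ζ : Fin n → ℂ := fun i => Complex.I * τ i + β * (pd i ρ p : ℝ) with hζ
  have hθq : ∑ i, ∑ j, (b i j p : ℂ) * (ζ i * (starRingEnd ℂ) (ζ j)) = (q : ℂ) :=
    contrB (fun i j => hs i j p) hbν β
  have cU : ∀ N i, Continuous (pd i (U N)) := fun N => pd_cont (hU N)
  have cUc : ∀ N i, Continuous fun x => (starRingEnd ℂ) (pd i (U N) x) := fun N i =>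
    Complex.continuous_conj.comp (cU N i)
  have cr : Continuous fun x => ((ρ x ^ m : ℝ) : ℂ) := Complex.continuous_ofReal.comp cm
  -- left side
  have L1 : Tendsto (fun N => ((Z N : ℝ) : ℂ)⁻¹ *
      bl (Om ρ) (fun x => t x - s x) (U N) (fun x => (starRingEnd ℂ) (U N x))) atTop
      (𝓝 (q : ℂ)) := by
    have h4 : Tendsto (fun N => ∑ i, ∑ j, ((Z N : ℝ) : ℂ)⁻¹ * ∫ x in Om ρ,
        ((ρ x ^ m : ℝ) : ℂ) * ((b i j x : ℝ) : ℂ) * pd i (U N) x *
          (starRingEnd ℂ) (pd j (U N) x)) atTop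
        (𝓝 (∑ i, ∑ j, ((b i j p : ℝ) : ℂ) * ζ i * (starRingEnd ℂ) (ζ j))) :=
      tendsto_finsetSum _ fun i _ => tendsto_finsetSum _ fun j _ =>
        hlim (fun x => ((b i j x : ℝ) : ℂ))
          (Complex.continuous_ofReal.comp (cb i j)).continuousOn i j
    have h5 : ∑ i, ∑ j, ((b i j p : ℝ) : ℂ) * ζ i * (starRingEnd ℂ) (ζ j) = (q : ℂ) := by
      rw [← hθq]
      exact Finset.sum_congr rfl fun i _ => Finset.sum_congr rfl fun j _ => by ring
    rw [h5] at h4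
    refine h4.congr fun N => ?_
    simp only [← Finset.mul_sum]
    congr 1
    have i1 : ∀ i j, IntegrableOn (fun x => ((ρ x ^ m : ℝ) : ℂ) * ((b i j x : ℝ) : ℂ) *
        pd i (U N) x * (starRingEnd ℂ) (pd j (U N) x)) (Om ρ) := fun i j =>
      om_int hρ (((cr.mul (Complex.continuous_ofReal.comp (cb i j))).mul (cU N i)).mul (cUc N j))
    unfold bl
    rw [← (integral_finsetSum _ fun i _ => integrable_finsetSum _ fun j _ => i1 i j).trans
      (Finset.sum_congr rfl fun i _ => integral_finsetSum _ fun j _ => i1 i j)]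
    refine integral_congr_ae (Eventually.of_forall fun x => ?_)
    simp only [pd_conj (hU N)]
    refine Finset.sum_congr rfl fun i _ => Finset.sum_congr rfl fun j _ => ?_
    have h6 : (t x - s x) i j = ρ x ^ m * b i j x := by
      rw [← hh x i j]
      rfl
    rw [h6]
    push_cast
    ring
  -- right side
  have R1 : Tendsto (fun N => ((Z N : ℝ) : ℂ)⁻¹ * ((∫ x in Om ρ, ∑ i, ∑ j,
      |t x i j - s x i j| ^ 2 * ‖pd j (U N) x‖ ^ 2 : ℝ) : ℂ)) atTop
      (𝓝 (((ρ p ^ m * ∑ i, ∑ j, b i j p ^ 2 * ‖ζ j‖ ^ 2 : ℝ)) : ℂ)) := by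
    have h4 : Tendsto (fun N => ∑ i, ∑ j, ((Z N : ℝ) : ℂ)⁻¹ * ∫ x in Om ρ,
        ((ρ x ^ m : ℝ) : ℂ) * ((ρ x ^ m * b i j x ^ 2 : ℝ) : ℂ) * pd j (U N) x *
          (starRingEnd ℂ) (pd j (U N) x)) atTop
        (𝓝 (∑ i, ∑ j, ((ρ p ^ m * b i j p ^ 2 : ℝ) : ℂ) * ζ j * (starRingEnd ℂ) (ζ j))) :=
      tendsto_finsetSum _ fun i _ => tendsto_finsetSum _ fun j _ =>
        hlim (fun x => ((ρ x ^ m * b i j x ^ 2 : ℝ) : ℂ))
          (Complex.continuous_ofReal.comp (cm.mul ((cb i j).pow 2))).continuousOn j j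
    have h5 : ∑ i, ∑ j, ((ρ p ^ m * b i j p ^ 2 : ℝ) : ℂ) * ζ j * (starRingEnd ℂ) (ζ j) =
        ((ρ p ^ m * ∑ i, ∑ j, b i j p ^ 2 * ‖ζ j‖ ^ 2 : ℝ) : ℂ) := by
      rw [Finset.mul_sum]
      push_cast
      refine Finset.sum_congr rfl fun i _ => ?_
      rw [Finset.mul_sum]
      refine Finset.sum_congr rfl fun j _ => ?_
      have h6 : ((‖ζ j‖ : ℝ) : ℂ) ^ 2 = ζ j * (starRingEnd ℂ) (ζ j) := by
        rw [Complex.mul_conj, Complex.normSq_eq_norm_sq]
        push_cast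
        rfl
      rw [h6]
      ring
    rw [h5] at h4
    refine h4.congr fun N => ?_
    simp only [← Finset.mul_sum]
    congr 1
    have i1 : ∀ i j, IntegrableOn (fun x => ((ρ x ^ m : ℝ) : ℂ) *
        ((ρ x ^ m * b i j x ^ 2 : ℝ) : ℂ) * pd j (U N) x * (starRingEnd ℂ) (pd j (U N) x))
        (Om ρ) := fun i j =>
      om_int hρ (((cr.mul (Complex.continuous_ofReal.comp (cm.mul ((cb i j).pow 2)))).mul
        (cU N j)).mul (cUc N j))
    rw [← (integral_finsetSum _ fun i _ => integrable_finsetSum _ fun j _ => i1 i j).trans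
      (Finset.sum_congr rfl fun i _ => integral_finsetSum _ fun j _ => i1 i j)]
    refine Eq.trans ?_ integral_ofReal
    refine integral_congr_ae (Eventually.of_forall fun x => ?_)
    show _ = ((∑ i, ∑ j, |t x i j - s x i j| ^ 2 * ‖pd j (U N) x‖ ^ 2 : ℝ) : ℂ)
    simp only [hh, sq_abs]
    push_cast
    refine Finset.sum_congr rfl fun i _ => Finset.sum_congr rfl fun j _ => ?_
    have h6 : ((‖pd j (U N) x‖ : ℝ) : ℂ) ^ 2 = pd j (U N) x * (starRingEnd ℂ) (pd j (U N) x) := by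
      rw [Complex.mul_conj, Complex.normSq_eq_norm_sq]
      push_cast
      rfl
    rw [h6]
    ring
  -- comparison
  have h7 : ‖(q : ℂ)‖ ≤ c₀ * (‖((ρ p ^ m * ∑ i, ∑ j, b i j p ^ 2 * ‖ζ j‖ ^ 2 : ℝ) : ℂ)‖ + 0) := by
    refine le_of_tendsto_of_tendsto' L1.norm ((R1.norm.add hlim0).const_mul c₀) fun N => ?_
    rw [norm_mul, norm_mul, Complex.norm_real]
    have h8 : 0 ≤ ∫ x in Om ρ, ∑ i, ∑ j, |t x i j - s x i j| ^ 2 * ‖pd j (U N) x‖ ^ 2 :=
      integral_nonneg fun x => Finset.sum_nonneg fun i _ => Finset.sum_nonneg fun j _ => by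
        positivity
    have h8' : ‖(((Z N : ℝ) : ℂ))⁻¹‖ = (Z N)⁻¹ := by
      rw [norm_inv, Complex.norm_real, Real.norm_of_nonneg (hZ N).le]
    rw [Real.norm_of_nonneg h8, h8']
    have h9 := mul_le_mul_of_nonneg_left (hen (U N) (hU N)) (inv_nonneg.2 (hZ N).le)
    linarith
  rw [Complex.norm_real, Complex.norm_real, Real.norm_eq_abs, Real.norm_eq_abs, add_zero] at h7
  have hρm : 0 ≤ ρ p ^ m := by rw [hp]; positivity
  -- the size of `ζ`
  have hτ : ∀ j, τ j ^ 2 ≤ 1 := fun j => h2 ▸ Finset.single_le_sum (f := fun i => τ i ^ 2)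
      (fun i _ => sq_nonneg _) (Finset.mem_univ j)
  have hτ' : ∀ j, |τ j| ≤ 1 := fun j => abs_le_of_sq_le_sq (by linarith [hτ j]) (by norm_num)
  have hg : ∀ j, ‖β‖ ^ 2 * (pd j ρ p) ^ 2 ≤ n ^ 2 / μ ^ 2 := by
    intro j
    have a1 : (pd j ρ p) ^ 2 ≤ ∑ i, (pd i ρ p) ^ 2 :=
      Finset.single_le_sum (f := fun i => (pd i ρ p) ^ 2) (fun i _ => sq_nonneg _)
        (Finset.mem_univ j)
    have a2 : μ * ∑ i, (pd i ρ p) ^ 2 ≤ gr s ρ ρ p := hE.1 p fun i => pd i ρ p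
    have a3 : ∑ i, ∑ j, s p i j * τ i * τ j ≤ n ^ 2 / μ := by
      have a4 : ∀ i j, s p i j * τ i * τ j ≤ μ⁻¹ := by
        intro i j
        refine (le_abs_self _).trans ?_
        rw [abs_mul, abs_mul]
        have := hE.2 p i j
        have b1 : |s p i j| * |τ i| ≤ μ⁻¹ * 1 :=
          mul_le_mul this (hτ' i) (abs_nonneg _) (by positivity)
        have b2 : |s p i j| * |τ i| * |τ j| ≤ μ⁻¹ * 1 * 1 :=
          mul_le_mul b1 (hτ' j) (abs_nonneg _) (by positivity)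
        linarith
      calc ∑ i, ∑ j, s p i j * τ i * τ j ≤ ∑ _i : Fin n, ∑ _j : Fin n, μ⁻¹ :=
            Finset.sum_le_sum fun i _ => Finset.sum_le_sum fun j _ => a4 i j
        _ = n ^ 2 / μ := by
          simp only [Finset.sum_const, Finset.card_univ, Fintype.card_fin, nsmul_eq_mul]
          ring
    have a5 : μ * (‖β‖ ^ 2 * (pd j ρ p) ^ 2) ≤ n ^ 2 / μ := by
      calc μ * (‖β‖ ^ 2 * (pd j ρ p) ^ 2) ≤ μ * (‖β‖ ^ 2 * ∑ i, (pd i ρ p) ^ 2) := by gcongr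
        _ = ‖β‖ ^ 2 * (μ * ∑ i, (pd i ρ p) ^ 2) := by ring
        _ ≤ ‖β‖ ^ 2 * gr s ρ ρ p := by gcongr
        _ = ∑ i, ∑ j, s p i j * τ i * τ j := hβ
        _ ≤ n ^ 2 / μ := a3
    have a6 : ‖β‖ ^ 2 * (pd j ρ p) ^ 2 ≤ n ^ 2 / μ / μ := by
      rw [le_div_iff₀ hμ]
      linarith
    calc _ ≤ n ^ 2 / μ / μ := a6
      _ = n ^ 2 / μ ^ 2 := by rw [div_div, pow_two μ]
  have h10 : ∀ j, ‖ζ j‖ ^ 2 ≤ 2 + 2 * (n ^ 2 / μ ^ 2) := fun j => by
    have b1 : ‖ζ j‖ ≤ |τ j| + ‖β‖ * |pd j ρ p| := by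
      refine (norm_add_le _ _).trans (le_of_eq ?_)
      rw [norm_mul, norm_mul, Complex.norm_I, Complex.norm_real, Complex.norm_real, one_mul,
        Real.norm_eq_abs, Real.norm_eq_abs]
    have b2 : ‖ζ j‖ ^ 2 ≤ (|τ j| + ‖β‖ * |pd j ρ p|) ^ 2 :=
      pow_le_pow_left₀ (norm_nonneg _) b1 2
    have b3 : (|τ j| + ‖β‖ * |pd j ρ p|) ^ 2 ≤ 2 * |τ j| ^ 2 + 2 * (‖β‖ * |pd j ρ p|) ^ 2 := by
      nlinarith [sq_nonneg (|τ j| - ‖β‖ * |pd j ρ p|)]
    have b4 : (‖β‖ * |pd j ρ p|) ^ 2 = ‖β‖ ^ 2 * (pd j ρ p) ^ 2 := by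
      rw [mul_pow, sq_abs]
    rw [b4, sq_abs] at b3
    have := hg j
    have := hτ j
    linarith
  have h11 : 0 ≤ ∑ i, ∑ j, b i j p ^ 2 * ‖ζ j‖ ^ 2 :=
    Finset.sum_nonneg fun i _ => Finset.sum_nonneg fun j _ => by positivity
  have h12 : ∑ i, ∑ j, b i j p ^ 2 * ‖ζ j‖ ^ 2 ≤
      (2 + 2 * (n ^ 2 / μ ^ 2)) * ∑ i, ∑ j, b i j p ^ 2 := by
    simp only [Finset.mul_sum]
    refine Finset.sum_le_sum fun i _ => Finset.sum_le_sum fun j _ => ?_
    have := mul_le_mul_of_nonneg_left (h10 j) (sq_nonneg (b i j p))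
    linarith
  rw [abs_of_nonneg (mul_nonneg hρm h11)] at h7
  have h13 := mul_le_mul_of_nonneg_left (mul_le_mul_of_nonneg_left h12 hρm) hc₀
  linarith

lemma bd_coreB (hρ : Dom ρ) {s t : MF n} {K a : ℝ} (hK : 0 ≤ K)
    (hKa : n * (n * (K * a)) ≤ 1 / 2)
    (ha : ∀ x ∈ Om ρ, ∀ i j, |t x i j - s x i j| ≤ a)
    {m : ℕ} {b : Fin n → Fin n → V n → ℝ}
    (hkey : ∀ {p : V n}, ρ p = 0 → ∀ {τ : V n}, ∑ i, τ i ^ 2 = 1 →
      ∑ i, τ i * pd i ρ p = 0 → (∀ i, ∑ j, b i j p * pd j ρ p = 0) →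
      |∑ i, ∑ j, b i j p * (τ i * τ j)| ≤ K * (ρ p ^ m * ∑ i, ∑ j, b i j p ^ 2))
    (hb : ∀ i j, ContDiff ℝ ∞ (b i j))
    (hs : ∀ i j x, b i j x = b j i x) (hh : ∀ x i j, t x i j - s x i j = ρ x ^ m * b i j x)
    (hbν : ∀ x, ρ x = 0 → ∀ i, ∑ j, b i j x * pd j ρ x = 0) :
    ∀ x, ρ x = 0 → ∀ i j, b i j x = 0 := by
  intro p hp
  set g : V n := fun i => pd i ρ p with hg
  set S0 : ℝ := ∑ i, g i ^ 2 with hS0
  have hS0n : 0 ≤ S0 := Finset.sum_nonneg fun i _ => sq_nonneg _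
  have hS0p : 0 < S0 := by
    refine lt_of_le_of_ne hS0n fun h0 => hρ.nz p hp ?_
    have hz : ∀ i, g i = 0 := fun i =>
      pow_eq_zero_iff two_ne_zero |>.1 ((Finset.sum_eq_zero_iff_of_nonneg fun i _ =>
        sq_nonneg (g i)).1 h0.symm i (Finset.mem_univ i))
    refine ContinuousLinearMap.coe_injective (LinearMap.pi_ext' fun i => LinearMap.ext_ring ?_)
    have h1 : (fderiv ℝ ρ p) (Pi.single i 1) = 0 := hz i
    simpa using h1
  set c : ℝ := √S0 with hc'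
  have hc0 : 0 < c := Real.sqrt_pos.2 hS0p
  have hcc : c ^ 2 = S0 := Real.sq_sqrt hS0n
  set ν : V n := fun i => g i / c with hνd
  have hν1 : ∑ i, ν i ^ 2 = 1 := by
    have h : ∑ i, ν i ^ 2 = S0 / c ^ 2 := by
      rw [hS0, Finset.sum_div]
      exact Finset.sum_congr rfl fun i _ => by simp only [hνd]; ring
    rw [h, hcc, div_self hS0p.ne']
  have hbν' : ∀ i, ∑ j, b i j p * ν j = 0 := fun i => by
    have h : ∑ j, b i j p * ν j = (∑ j, b i j p * pd j ρ p) / c := by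
      rw [Finset.sum_div]
      exact Finset.sum_congr rfl fun j _ => by simp only [hνd, hg]; ring
    rw [h, hbν p hp i, zero_div]
  set S : ℝ := ∑ i, ∑ j, b i j p ^ 2 with hS
  have hS00 : 0 ≤ S := Finset.sum_nonneg fun i _ => Finset.sum_nonneg fun j _ => sq_nonneg _
  have hρm : 0 ≤ ρ p ^ m := by rw [hp]; positivity
  have hκ : 0 ≤ K * (ρ p ^ m * S) := by positivity
  have hpol := polar (fun i j => hs i j p) hν1 hbν' hκ fun τ h2 h3 => by
    have h4 : ∑ i, τ i * pd i ρ p = 0 := by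
      have h5 : ∑ i, τ i * pd i ρ p = c * ∑ i, ν i * τ i := by
        rw [Finset.mul_sum]
        refine Finset.sum_congr rfl fun i _ => ?_
        simp only [hνd, hg]
        field_simp
      rw [h5, h3, mul_zero]
    exact hkey hp h2 h4 (hbν p hp)
  rcases Nat.eq_zero_or_pos m with hm | hm
  · subst hm
    have hcl : ∀ i j, |b i j p| ≤ a := by
      intro i j
      have h1 : IsClosed {x : V n | |b i j x| ≤ a} :=
        isClosed_le (hb i j).continuous.abs continuous_const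
      refine closure_minimal ?_ h1 (mem_closure hρ hp)
      intro x hx
      have h2 := ha x hx i j
      rwa [hh x i j, pow_zero, one_mul] at h2
    simp only [pow_zero, one_mul] at hpol
    have h1 : S ≤ ∑ i : Fin n, ∑ j : Fin n, K * S * a := by
      rw [hS]
      refine Finset.sum_le_sum fun i _ => Finset.sum_le_sum fun j _ => ?_
      rw [← sq_abs, pow_two]
      exact mul_le_mul (hpol i j) (hcl i j) (abs_nonneg _) (by positivity)
    rw [Finset.sum_const, Finset.sum_const, Finset.card_univ, Fintype.card_fin, nsmul_eq_mul,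
      nsmul_eq_mul] at h1
    have h2 : (n : ℝ) * (n * (K * S * a)) ≤ S / 2 := by
      calc (n : ℝ) * (n * (K * S * a)) = n * (n * (K * a)) * S := by ring
        _ ≤ 1 / 2 * S := by gcongr
        _ = S / 2 := by ring
    have h3 : S = 0 := by linarith
    intro i j
    have h4 := hpol i j
    rw [h3, mul_zero] at h4
    exact abs_nonpos_iff.1 h4
  · intro i j
    have h4 := hpol i j
    rw [hp, zero_pow hm.ne', zero_mul, mul_zero] at h4
    exact abs_nonpos_iff.1 h4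

/-- **Row B_BD.** -/
theorem rowBBD (hQU : RowBQU) (hEN : RowBEN) : RowBBD := by
  intro n hn μ hμ
  obtain ⟨C, hC, hEN⟩ := hEN n μ hμ
  have hn0 : (0 : ℝ) < n := by
    have : 0 < n := by omega
    exact_mod_cast this
  set K : ℝ := C * (2 + 2 * (n ^ 2 / μ ^ 2)) with hK
  have hK0 : 0 < K := by positivity
  refine ⟨min (μ / (2 * (n + 1))) (1 / (2 * n * n * K)), by positivity, ?_⟩
  intro ρ hρ s t hs ht hspd htpsd hE hSE ha m b hb hbs hh hbν
  refine bd_coreB hρ (K := K) (a := min (μ / (2 * (n + 1))) (1 / (2 * n * n * K))) hK0.le ?_ ha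
    (fun {p} hp {τ} h2 h3 h4 => ?_) hb hbs hh hbν
  · have h1 : K * min (μ / (2 * (n + 1))) (1 / (2 * n * n * K)) ≤
        K * (1 / (2 * n * n * K)) := mul_le_mul_of_nonneg_left (min_le_right _ _) hK0.le
    have h2 : (n : ℝ) * (n * (K * (1 / (2 * n * n * K)))) = 1 / 2 := by
      field_simp
    calc (n : ℝ) * (n * (K * min (μ / (2 * (n + 1))) (1 / (2 * n * n * K)))) ≤
          n * (n * (K * (1 / (2 * n * n * K)))) := by gcongr
      _ = 1 / 2 := h2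
  · exact keyB hρ hQU hs hspd hμ hE hC.le
      (hEN ρ hρ s t hs ht (fun x => (hspd x).posSemidef) htpsd hE
        (fun x hx i j => (ha x hx i j).trans (min_le_left _ _)) hSE) hb hbs hh hp h2 h3 h4

end Vale.Agent.P088.HY.Bd
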