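import Vale.Agent.P088.R2.H558.Est
import Vale.Agent.P088.R2.H724.Geo

/-!
# P088, row EQB: the form `Γ₂`-type expression `Gx`, exact formula
-/

open MeasureTheory Set Filter
open scoped ContDiff Matrix Topology

noncomputable section

namespace Vale.Agent.P088.HY.EQB

open Vale.Agent.P088.LR

variable {n : ℕ}

/-! ### Bounds from `Cl` -/

lemma cl_val {k : ℕ} {ε : ℝ} {f : V n → ℝ} (h : Cl k ε f) (x : V n) : |f x| ≤ ε := by
  have h1 := h 0 (Nat.zero_le _) x
  rwa [norm_iteratedFDeriv_zero, Real.norm_eq_abs] at h1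

lemma cl_pd {k : ℕ} {ε : ℝ} {f : V n → ℝ} (h : Cl k ε f) (hk : 1 ≤ k) (i : Fin n) (x : V n) :
    |pd i f x| ≤ ε := by
  have h1 := h 1 hk x
  rw [norm_iteratedFDeriv_one] at h1
  have h2 : ‖(Pi.single i 1 : V n)‖ = 1 := by
    rw [Pi.norm_single]; simp
  have h3 := (fderiv ℝ f x).le_opNorm (Pi.single i 1)
  rw [h2, mul_one] at h3
  exact (h3.trans h1)

lemma abs_sum_le {f : Fin n → ℝ} {M : ℝ} (h : ∀ i, |f i| ≤ M) : |∑ i, f i| ≤ n * M := by
  refine (Finset.abs_sum_le_sum_abs _ _).trans ?_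
  refine (Finset.sum_le_card_nsmul _ _ M fun i _ => h i).trans ?_
  simp

/-- The entries of `s` as functions of `z`. -/
def se (s : MF n) (k l : Fin n) (z : VV n) : ℝ := s z.1 k l

lemma su_se {s : MF n} (hs : SmM s) (k l : Fin n) : SU (se s k l) :=
  ((hs k l).comp contDiff_fst).contDiffOn

lemma Ax_se {s : MF n} (hs : SmM s) (j k l : Fin n) (z : VV n) :
    Ax j (se s k l) z = rr z.1 * pd j (fun x => s x k l) z.1 := by
  show rr z.1 * dx j (fun z : VV n => (fun x => s x k l) z.1) z = _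
  rw [dx_comp_fst ((hs k l).differentiable (by simp) _)]

lemma By_se {s : MF n} (j k l : Fin n) (z : VV n) : By j (se s k l) z = 0 := by
  have h : dy j (se s k l) z = 0 := dy_comp_fst (fun x => s x k l) z j
  unfold By
  rw [h, mul_zero]

lemma abs_rr_le {z : VV n} (hz : z ∈ Un n) : |rr z.1| ≤ 1 := by
  rw [abs_of_pos (rr_pos hz.1)]
  have := rr_le z.1
  linarith

lemma pd_sub_one {s : MF n} (j k l : Fin n) (x : V n) :
    pd j (fun x => s x k l - (1 : Matrix (Fin n) (Fin n) ℝ) k l) x = pd j (fun x => s x k l) x := by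
  unfold pd
  rw [fderiv_sub_const]

lemma abs_Ax_se_le {ε : ℝ} {s : MF n} (h : TS n 3 ε s) {z : VV n} (hz : z ∈ Un n)
    (j k l : Fin n) : |Ax j (se s k l) z| ≤ ε := by
  have h1 := cl_pd (h.cl k l) (by norm_num) j z.1
  rw [pd_sub_one] at h1
  rw [Ax_se h.sm, abs_mul]
  have h2 := abs_rr_le hz
  have h3 := abs_nonneg (rr z.1)
  nlinarith [abs_nonneg (pd j (fun x => s x k l) z.1)]

lemma abs_s_sub {ε : ℝ} {s : MF n} (h : TS n 3 ε s) (x : V n) (k l : Fin n) :
    |s x k l - kd k l| ≤ ε := by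
  have h1 := cl_val (h.cl k l) x
  rwa [Matrix.one_apply] at h1

lemma abs_kd_le (k l : Fin n) : |kd k l| ≤ 1 := by
  unfold kd; split_ifs <;> simp

lemma abs_s_le {ε : ℝ} {s : MF n} (h : TS n 3 ε s) (h1 : ε ≤ 1) (x : V n) (k l : Fin n) :
    |s x k l| ≤ 2 := by
  have h2 := abs_s_sub h x k l
  have h3 := abs_kd_le k l
  have h4 : |s x k l| ≤ |s x k l - kd k l| + |kd k l| := by
    have := abs_add_le (s x k l - kd k l) (kd k l)
    simpa using this
  linarith

/-! ### Derivatives of `Γ` -/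

lemma su_Gax {s : MF n} (hs : SmM s) {f h : VV n → ℝ} (hf : SU f) (hh : SU h) :
    SU (Gax s f h) := by
  unfold Gax
  exact ContDiffOn.sum fun i _ => ContDiffOn.sum fun j _ =>
    ((su_se hs i j).mul (su_Ax hf i)).mul (su_Ax hh j)

lemma Ax_Gax {s : MF n} (hs : SmM s) {f h : VV n → ℝ} (hf : SU f) (hh : SU h) {z : VV n}
    (hz : z ∈ Un n) (j : Fin n) : Ax j (Gax s f h) z =
      ∑ k, ∑ l, (Ax j (se s k l) z * Ax k f z * Ax l h z + s z.1 k l * Ax j (Ax k f) z * Ax l h z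
        + s z.1 k l * Ax k f z * Ax j (Ax l h) z) := by
  have e1 : Gax s f h = fun z => ∑ k, (fun z => ∑ l, (fun z => se s k l z * Ax k f z *
      Ax l h z) z) z := rfl
  rw [e1, Ax_eq, Dr_sum _ (fun k => ContDiffOn.sum fun l _ =>
    ((su_se hs k l).mul (su_Ax hf k)).mul (su_Ax hh l)) hz]
  refine Finset.sum_congr rfl fun k _ => ?_
  rw [Dr_sum _ (fun l => ((su_se hs k l).mul (su_Ax hf k)).mul (su_Ax hh l)) hz]
  refine Finset.sum_congr rfl fun l _ => ?_
  rw [Dr_mul ((su_se hs k l).mul (su_Ax hf k)) (su_Ax hh l) hz,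
    Dr_mul (su_se hs k l) (su_Ax hf k) hz]
  unfold se
  ring

lemma By_Gax {s : MF n} (hs : SmM s) {f h : VV n → ℝ} (hf : SU f) (hh : SU h) {z : VV n}
    (hz : z ∈ Un n) (j : Fin n) : By j (Gax s f h) z =
      ∑ k, ∑ l, (s z.1 k l * By j (Ax k f) z * Ax l h z
        + s z.1 k l * Ax k f z * By j (Ax l h) z) := by
  have e1 : Gax s f h = fun z => ∑ k, (fun z => ∑ l, (fun z => se s k l z * Ax k f z *
      Ax l h z) z) z := rfl
  rw [e1, By_eq, Dr_sum _ (fun k => ContDiffOn.sum fun l _ =>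
    ((su_se hs k l).mul (su_Ax hf k)).mul (su_Ax hh l)) hz]
  refine Finset.sum_congr rfl fun k _ => ?_
  rw [Dr_sum _ (fun l => ((su_se hs k l).mul (su_Ax hf k)).mul (su_Ax hh l)) hz]
  refine Finset.sum_congr rfl fun l _ => ?_
  rw [Dr_mul ((su_se hs k l).mul (su_Ax hf k)) (su_Ax hh l) hz,
    Dr_mul (su_se hs k l) (su_Ax hf k) hz]
  have e2 : Dr r2 (0, Pi.single j 1) (se s k l) z = 0 := By_se j k l z
  rw [e2]
  unfold se
  ring

/-! ### The exact formula -/

/-- Pure algebra. -/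
lemma alg (S : Fin n → Fin n → ℝ) (hS : ∀ i j, S i j = S j i) (D : Fin n → Fin n → Fin n → ℝ)
    (a ξ x : Fin n → ℝ) (H Ha : Fin n → Fin n → ℝ) (w : ℝ)
    (hH : ∀ i j, H i j = H j i + x j * ξ i - x i * ξ j)
    (hHa : ∀ j k, Ha j k = kd j k * w + x k * a j) :
    2 * (∑ i, ∑ j, S i j * ξ i * (∑ k, ∑ l, (D j k l * a k * ξ l + S k l * Ha j k * ξ l +
        S k l * a k * H j l))) -
      (∑ i, ∑ j, S i j * a i * (∑ k, ∑ l, (D j k l * ξ k * ξ l + S k l * H j k * ξ l +
        S k l * ξ k * H j l))) =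
    2 * w * (∑ j, (∑ i, S i j * ξ i) ^ 2) +
      2 * (∑ j, (∑ i, S i j * ξ i) * ξ j) * (∑ j, (∑ i, S i j * a i) * x j) +
      (2 * (∑ j, (∑ i, S i j * ξ i) * ∑ k, ∑ l, D j k l * a k * ξ l) -
        ∑ j, (∑ i, S i j * a i) * ∑ k, ∑ l, D j k l * ξ k * ξ l) := by
  set p : Fin n → ℝ := fun j => ∑ i, S i j * ξ i with hp
  set q : Fin n → ℝ := fun j => ∑ i, S i j * a i with hq
  have hp' : ∀ k, ∑ l, S k l * ξ l = p k := fun k => by
    simp only [hp]
    exact Finset.sum_congr rfl fun l _ => by rw [hS k l]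
  -- inner sums
  have h1 : ∀ j, ∑ k, ∑ l, (D j k l * a k * ξ l + S k l * Ha j k * ξ l + S k l * a k * H j l) =
      (∑ k, ∑ l, D j k l * a k * ξ l) + (w * p j + a j * ∑ k, p k * x k) +
        ∑ l, q l * H j l := by
    intro j
    have e2 : ∑ k, ∑ l, S k l * Ha j k * ξ l = w * p j + a j * ∑ k, p k * x k := by
      have : ∀ k, ∑ l, S k l * Ha j k * ξ l = kd j k * (w * p k) + a j * (p k * x k) := by
        intro k
        have : ∀ l, S k l * Ha j k * ξ l = Ha j k * (S k l * ξ l) := fun l => by ring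
        simp only [this, ← Finset.mul_sum, hp']
        rw [hHa]
        ring
      simp only [this, Finset.sum_add_distrib, ← Finset.mul_sum]
      rw [sum_kd j fun k => w * p k]
    have e3 : ∑ k, ∑ l, S k l * a k * H j l = ∑ l, q l * H j l := by
      rw [Finset.sum_comm]
      refine Finset.sum_congr rfl fun l _ => ?_
      simp only [hq]
      rw [Finset.sum_mul]
    simp only [Finset.sum_add_distrib]
    rw [e2, e3]
  have h2 : ∀ j, ∑ k, ∑ l, (D j k l * ξ k * ξ l + S k l * H j k * ξ l + S k l * ξ k * H j l) =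
      (∑ k, ∑ l, D j k l * ξ k * ξ l) + 2 * ∑ k, p k * H j k := by
    intro j
    have e2 : ∑ k, ∑ l, S k l * H j k * ξ l = ∑ k, p k * H j k := by
      refine Finset.sum_congr rfl fun k _ => ?_
      have : ∀ l, S k l * H j k * ξ l = H j k * (S k l * ξ l) := fun l => by ring
      simp only [this, ← Finset.mul_sum, hp']
      ring
    have e3 : ∑ k, ∑ l, S k l * ξ k * H j l = ∑ k, p k * H j k := by
      rw [Finset.sum_comm]
      refine Finset.sum_congr rfl fun l _ => ?_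
      simp only [hp]
      rw [Finset.sum_mul]
    simp only [Finset.sum_add_distrib]
    rw [e2, e3]
    ring
  have h3 : ∀ (b : Fin n → ℝ) (T : Fin n → ℝ), ∑ i, ∑ j, S i j * b i * T j =
      ∑ j, (∑ i, S i j * b i) * T j := by
    intro b T
    rw [Finset.sum_comm]
    refine Finset.sum_congr rfl fun j _ => ?_
    rw [Finset.sum_mul]
  rw [h3, h3]
  simp only [h1, h2]
  change 2 * (∑ j, p j * _) - (∑ j, q j * _) = 2 * w * (∑ j, p j ^ 2) +
    2 * (∑ j, p j * ξ j) * (∑ j, q j * x j) + (2 * (∑ j, p j * _) - ∑ j, q j * _)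
  -- the second derivatives
  have h4 : ∑ j, ∑ l, p j * (q l * H j l) - ∑ j, ∑ k, q j * (p k * H j k) =
      (∑ j, p j * ξ j) * (∑ l, q l * x l) - (∑ j, p j * x j) * ∑ l, q l * ξ l := by
    have e1 : ∑ j, ∑ k, q j * (p k * H j k) = ∑ j, ∑ l, p j * (q l * H l j) := by
      rw [Finset.sum_comm]
      exact Finset.sum_congr rfl fun j _ => Finset.sum_congr rfl fun l _ => by ring
    rw [e1, ← Finset.sum_sub_distrib, Finset.sum_mul_sum, Finset.sum_mul_sum,
      ← Finset.sum_sub_distrib]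
    refine Finset.sum_congr rfl fun j _ => ?_
    rw [← Finset.sum_sub_distrib, ← Finset.sum_sub_distrib]
    refine Finset.sum_congr rfl fun l _ => ?_
    rw [hH j l]
    ring
  have h5 : ∑ l, q l * ξ l = ∑ l, p l * a l := by
    simp only [hp, hq, Finset.sum_mul]
    rw [Finset.sum_comm]
    refine Finset.sum_congr rfl fun i _ => Finset.sum_congr rfl fun l _ => ?_
    rw [hS i l]
    ring
  have h6 : ∀ (b T₁ T₂ : Fin n → ℝ), ∑ j, b j * (T₁ j + T₂ j) =
      ∑ j, b j * T₁ j + ∑ j, b j * T₂ j := by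
    intro b T₁ T₂
    rw [← Finset.sum_add_distrib]
    exact Finset.sum_congr rfl fun j _ => by ring
  have h7 : ∑ j, p j * ((∑ k, ∑ l, D j k l * a k * ξ l) + (w * p j + a j * ∑ k, p k * x k) +
      ∑ l, q l * H j l) = ∑ j, p j * (∑ k, ∑ l, D j k l * a k * ξ l) +
      (w * ∑ j, p j ^ 2 + (∑ j, p j * a j) * ∑ k, p k * x k) + ∑ j, ∑ l, p j * (q l * H j l) := by
    rw [h6, h6, h6]
    congr 1
    · congr 1
      congr 1
      · rw [Finset.mul_sum]
        exact Finset.sum_congr rfl fun j _ => by ring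
      · rw [Finset.sum_mul]
        exact Finset.sum_congr rfl fun j _ => by ring
    · exact Finset.sum_congr rfl fun j _ => by rw [Finset.mul_sum]
  have h8 : ∑ j, q j * ((∑ k, ∑ l, D j k l * ξ k * ξ l) + 2 * ∑ k, p k * H j k) =
      ∑ j, q j * (∑ k, ∑ l, D j k l * ξ k * ξ l) + 2 * ∑ j, ∑ k, q j * (p k * H j k) := by
    rw [h6]
    congr 1
    rw [Finset.mul_sum]
    refine Finset.sum_congr rfl fun j _ => ?_
    rw [← Finset.mul_sum]
    ring
  rw [h7, h8]
  linear_combination 2 * h4 + 2 * (∑ j, p j * x j) * (-h5)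

end Vale.Agent.P088.HY.EQB
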