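import Vale.Agent.P088.R2.H281.EqbA

/-!
# P088, row EQB: bounds for the gradient form
-/

open MeasureTheory Set Filter
open scoped ContDiff Matrix Topology

noncomputable section

namespace Vale.Agent.P088.HY.EQB

open Vale.Agent.P088.LR

variable {n : ℕ}

/-- `(s ξ)_j`. -/
def pj (s : MF n) (f : VV n → ℝ) (j : Fin n) (z : VV n) : ℝ := ∑ i, s z.1 i j * Ax i f z

/-- The part with derivatives of `s`. -/
def Tx (s : MF n) (f : VV n → ℝ) (z : VV n) : ℝ :=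
  2 * (∑ j, pj s f j z * ∑ k, ∑ l, Ax j (se s k l) z * al k z * Ax l f z) -
    ∑ j, pj s uu j z * ∑ k, ∑ l, Ax j (se s k l) z * Ax k f z * Ax l f z

lemma Gx_eq {s : MF n} (hs : SmM s) (hy : ∀ x, (s x).IsSymm) {f : VV n → ℝ} (hf : SU f)
    {z : VV n} (hz : z ∈ Un n) : Gx s f f z =
      2 * (uu z - xa z) * (∑ j, pj s f j z ^ 2) +
        2 * (∑ j, pj s f j z * Ax j f z) * (∑ j, pj s uu j z * z.1 j) + Tx s f z := by
  have h1 : Gx s f f z = 2 * Gax s f (Gax s uu f) z - Gax s uu (Gax s f f) z := by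
    unfold Gx; ring
  rw [h1]
  have h2 : Gax s f (Gax s uu f) z = ∑ i, ∑ j, s z.1 i j * Ax i f z *
      (∑ k, ∑ l, (Ax j (se s k l) z * al k z * Ax l f z + s z.1 k l * Ax j (al k) z * Ax l f z
        + s z.1 k l * al k z * Ax j (Ax l f) z)) := by
    show ∑ i, ∑ j, s z.1 i j * Ax i f z * Ax j (Gax s uu f) z = _
    refine Finset.sum_congr rfl fun i _ => Finset.sum_congr rfl fun j _ => ?_
    rw [Ax_Gax hs su_uu hf hz]
    rfl
  have h3 : Gax s uu (Gax s f f) z = ∑ i, ∑ j, s z.1 i j * al i z *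
      (∑ k, ∑ l, (Ax j (se s k l) z * Ax k f z * Ax l f z + s z.1 k l * Ax j (Ax k f) z *
        Ax l f z + s z.1 k l * Ax k f z * Ax j (Ax l f) z)) := by
    show ∑ i, ∑ j, s z.1 i j * Ax i uu z * Ax j (Gax s f f) z = _
    refine Finset.sum_congr rfl fun i _ => Finset.sum_congr rfl fun j _ => ?_
    rw [Ax_Gax hs hf hf hz]
    rfl
  rw [h2, h3]
  have h4 := alg (fun i j => s z.1 i j) (fun i j => ((hy z.1).apply j i))
    (fun j k l => Ax j (se s k l) z) (fun k => al k z) (fun l => Ax l f z) (fun j => z.1 j)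
    (fun j l => Ax j (Ax l f) z) (fun j k => Ax j (al k) z) (uu z - xa z)
    (fun i j => Ax_comm hf hz i j) (fun j k => Ax_al hz j k)
  exact h4

/-- The Euclidean length of `A f`. -/
def X1 (f : VV n → ℝ) (z : VV n) : ℝ := √(∑ i, Ax i f z ^ 2)

lemma X1_nonneg (f : VV n → ℝ) (z : VV n) : 0 ≤ X1 f z := Real.sqrt_nonneg _

lemma X1_sq (f : VV n → ℝ) (z : VV n) : X1 f z ^ 2 = ∑ i, Ax i f z ^ 2 :=
  Real.sq_sqrt (Finset.sum_nonneg fun _ _ => sq_nonneg _)

lemma abs_Ax_le (f : VV n → ℝ) (z : VV n) (i : Fin n) : |Ax i f z| ≤ X1 f z := by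
  apply Real.abs_le_sqrt
  exact Finset.single_le_sum (f := fun i => Ax i f z ^ 2) (fun j _ => sq_nonneg _)
    (Finset.mem_univ i)

section bd

variable {ε : ℝ} {s : MF n} {z : VV n}

lemma pj_sub_le (h : TS n 3 ε s) {f : VV n → ℝ} {X : ℝ} (hX : ∀ i, |Ax i f z| ≤ X)
    (h0 : 0 ≤ ε) (j : Fin n) : |pj s f j z - Ax j f z| ≤ n * (ε * X) := by
  have e1 : pj s f j z - Ax j f z = ∑ i, (s z.1 i j - kd i j) * Ax i f z := by
    simp only [sub_mul, Finset.sum_sub_distrib]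
    rw [sum_kd' j fun i => Ax i f z]
    rfl
  rw [e1]
  refine abs_sum_le fun i => ?_
  rw [abs_mul]
  exact mul_le_mul (abs_s_sub h _ _ _) (hX i) (abs_nonneg _) h0

lemma pj_le (h : TS n 3 ε s) (h1 : ε ≤ 1) {f : VV n → ℝ} {X : ℝ} (hX : ∀ i, |Ax i f z| ≤ X)
    (j : Fin n) : |pj s f j z| ≤ n * (2 * X) := by
  refine abs_sum_le fun i => ?_
  rw [abs_mul]
  exact mul_le_mul (abs_s_le h h1 _ _ _) (hX i) (abs_nonneg _) (by norm_num)

lemma mul3_le {a b c A B C : ℝ} (ha : |a| ≤ A) (hb : |b| ≤ B) (hc : |c| ≤ C) :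
    |a * b * c| ≤ A * B * C := by
  have hA := (abs_nonneg a).trans ha
  have hB := (abs_nonneg b).trans hb
  rw [abs_mul, abs_mul]
  exact mul_le_mul (mul_le_mul ha hb (abs_nonneg _) hA) hc (abs_nonneg _) (mul_nonneg hA hB)

lemma mul2_le {a b A B : ℝ} (ha : |a| ≤ A) (hb : |b| ≤ B) : |a * b| ≤ A * B := by
  have hA := (abs_nonneg a).trans ha
  rw [abs_mul]
  exact mul_le_mul ha hb (abs_nonneg _) hA

lemma Tx_le (h : TS n 3 ε s) (h1 : ε ≤ 1) (hz : z ∈ Un n) (f : VV n → ℝ) :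
    |Tx s f z| ≤ 6 * n ^ 4 * (ε * (uu z * ∑ i, Ax i f z ^ 2)) := by
  have hX := abs_Ax_le f z
  have hA : ∀ i : Fin n, |Ax i uu z| ≤ uu z := fun i => abs_al_le hz i
  have hp := pj_le h h1 hX
  have hq := pj_le h h1 hA
  have e1 : |∑ j, pj s f j z * ∑ k, ∑ l, Ax j (se s k l) z * al k z * Ax l f z| ≤
      n * (n * (2 * X1 f z) * (n * (n * (ε * uu z * X1 f z)))) := by
    refine abs_sum_le fun j => mul2_le (hp j) (abs_sum_le fun k => abs_sum_le fun l => ?_)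
    exact mul3_le (abs_Ax_se_le h hz j k l) (abs_al_le hz k) (hX l)
  have e2 : |∑ j, pj s uu j z * ∑ k, ∑ l, Ax j (se s k l) z * Ax k f z * Ax l f z| ≤
      n * (n * (2 * uu z) * (n * (n * (ε * X1 f z * X1 f z)))) := by
    refine abs_sum_le fun j => mul2_le (hq j) (abs_sum_le fun k => abs_sum_le fun l => ?_)
    exact mul3_le (abs_Ax_se_le h hz j k l) (hX k) (hX l)
  have e3 : |Tx s f z| ≤ 2 * |∑ j, pj s f j z * ∑ k, ∑ l, Ax j (se s k l) z * al k z * Ax l f z|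
      + |∑ j, pj s uu j z * ∑ k, ∑ l, Ax j (se s k l) z * Ax k f z * Ax l f z| := by
    unfold Tx
    refine (abs_sub _ _).trans ?_
    rw [abs_mul]
    simp
  rw [← X1_sq]
  refine e3.trans ((add_le_add (mul_le_mul_of_nonneg_left e1 (by norm_num)) e2).trans
    (le_of_eq ?_))
  ring

lemma xa_le (hz : z ∈ Un n) : |xa z| ≤ n * uu z := by
  unfold xa
  refine abs_sum_le fun i => ?_
  have := mul2_le (abs_x_le hz i) (abs_al_le hz i)
  linarith

/-- `|Gx s f f - 2 u |A f|²| ≤ C ε u |A f|²`. -/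
lemma Gx_le (h : TS n 3 ε s) (h0 : 0 ≤ ε) (h1 : ε ≤ 1) (hz : z ∈ Un n) {f : VV n → ℝ}
    (hf : SU f) : |Gx s f f z - 2 * uu z * ∑ i, Ax i f z ^ 2| ≤
      (2 * (n + 1) * (n * (n * (2 * n + 1))) + 2 * (n * n * (n * (n * 2)) + n * n) + 6 * n ^ 4) *
        (ε * (uu z * ∑ i, Ax i f z ^ 2)) := by
  have hu := one_le_uu hz
  have hX := abs_Ax_le f z
  have hX0 := X1_nonneg f z
  have hA : ∀ i : Fin n, |Ax i uu z| ≤ uu z := fun i => abs_al_le hz i
  have hn : (0 : ℝ) ≤ n := Nat.cast_nonneg n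
  rw [Gx_eq h.sm h.sy hf hz]
  have hT := Tx_le h h1 hz f
  -- first square
  have e1 : |∑ j, pj s f j z ^ 2 - ∑ j, Ax j f z ^ 2| ≤
      n * (n * (ε * X1 f z) * (n * (2 * X1 f z) + X1 f z)) := by
    rw [← Finset.sum_sub_distrib]
    refine abs_sum_le fun j => ?_
    have : pj s f j z ^ 2 - Ax j f z ^ 2 = (pj s f j z - Ax j f z) * (pj s f j z + Ax j f z) := by
      ring
    rw [this]
    exact mul2_le (pj_sub_le h hX h0 j) ((abs_add_le _ _).trans (add_le_add (pj_le h h1 hX j)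
      (hX j)))
  have e2 : |∑ j, pj s f j z * Ax j f z - ∑ j, Ax j f z ^ 2| ≤ n * (n * (ε * X1 f z) * X1 f z) := by
    rw [← Finset.sum_sub_distrib]
    refine abs_sum_le fun j => ?_
    have : pj s f j z * Ax j f z - Ax j f z ^ 2 = (pj s f j z - Ax j f z) * Ax j f z := by ring
    rw [this]
    exact mul2_le (pj_sub_le h hX h0 j) (hX j)
  have e3 : |∑ j, pj s uu j z * z.1 j - xa z| ≤ n * (n * (ε * uu z) * 1) := by
    unfold xa
    rw [← Finset.sum_sub_distrib]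
    refine abs_sum_le fun j => ?_
    have : pj s uu j z * z.1 j - z.1 j * al j z = (pj s uu j z - Ax j uu z) * z.1 j := by
      show _ = (pj s uu j z - al j z) * z.1 j
      ring
    rw [this]
    exact mul2_le (pj_sub_le h hA h0 j) (abs_x_le hz j)
  have e4 : |∑ j, pj s uu j z * z.1 j| ≤ n * (n * (2 * uu z) * 1) :=
    abs_sum_le fun j => mul2_le (pj_le h h1 hA j) (abs_x_le hz j)
  have e5 : |uu z - xa z| ≤ (n + 1) * uu z := by
    have := xa_le hz
    have h2 := abs_sub (uu z) (xa z)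
    rw [abs_of_nonneg (by linarith : 0 ≤ uu z)] at h2
    linarith
  have hS : |∑ j, Ax j f z ^ 2| ≤ X1 f z ^ 2 := by
    rw [X1_sq, abs_of_nonneg (Finset.sum_nonneg fun i _ => sq_nonneg _)]
  have key : 2 * (uu z - xa z) * (∑ j, pj s f j z ^ 2) +
        2 * (∑ j, pj s f j z * Ax j f z) * (∑ j, pj s uu j z * z.1 j) + Tx s f z -
        2 * uu z * ∑ i, Ax i f z ^ 2 =
      2 * ((uu z - xa z) * (∑ j, pj s f j z ^ 2 - ∑ j, Ax j f z ^ 2)) +
      2 * ((∑ j, pj s f j z * Ax j f z - ∑ j, Ax j f z ^ 2) * (∑ j, pj s uu j z * z.1 j) +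
        (∑ j, Ax j f z ^ 2) * (∑ j, pj s uu j z * z.1 j - xa z)) + Tx s f z := by ring
  rw [key]
  have f1 := mul2_le e5 e1
  have f2 := mul2_le e2 e4
  have f3 := mul2_le hS e3
  have g : ∀ a b c d : ℝ, |2 * a + 2 * (b + c) + d| ≤ 2 * |a| + 2 * (|b| + |c|) + |d| := by
    intro a b c d
    calc |2 * a + 2 * (b + c) + d| ≤ |2 * a + 2 * (b + c)| + |d| := abs_add_le _ _
      _ ≤ |2 * a| + |2 * (b + c)| + |d| := by gcongr; exact abs_add_le _ _
      _ ≤ 2 * |a| + 2 * (|b| + |c|) + |d| := by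
        rw [abs_mul, abs_mul, abs_two]; gcongr; exact abs_add_le _ _
  refine (g _ _ _ _).trans ?_
  rw [← X1_sq] at hT f1 f2 f3 ⊢
  refine (add_le_add (add_le_add (mul_le_mul_of_nonneg_left f1 (zero_le_two (α := ℝ)))
    (mul_le_mul_of_nonneg_left (add_le_add f2 f3) (zero_le_two (α := ℝ)))) hT).trans
    (le_of_eq ?_)
  ring

end bd

end Vale.Agent.P088.HY.EQB
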