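import Vale.Agent.P088.R2.H281.EqbB

/-!
# P088, row EQB: exchange of the factors, the mixed form, the coefficient of `τ³`
-/

open MeasureTheory Set Filter
open scoped ContDiff Matrix Topology

noncomputable section

namespace Vale.Agent.P088.HY.EQB

open Vale.Agent.P088.LR

variable {n : ℕ}

/-! ### Exchange of the factors -/

/-- The exchange of the factors. -/
def swL (n : ℕ) : VV n ≃L[ℝ] VV n := ContinuousLinearEquiv.prodComm ℝ (V n) (V n)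

/-- The function with the factors exchanged. -/
def sw (f : VV n → ℝ) (z : VV n) : ℝ := f (z.2, z.1)

lemma sw_eq (f : VV n → ℝ) : sw f = f ∘ swL n := rfl

lemma sw_sw (f : VV n → ℝ) : sw (sw f) = f := rfl

lemma sw_Un {z : VV n} (hz : z ∈ Un n) : (z.2, z.1) ∈ Un n := ⟨hz.2, hz.1⟩

lemma su_sw {f : VV n → ℝ} (hf : SU f) : SU (sw f) := by
  rw [sw_eq]
  exact hf.comp (swL n).contDiff.contDiffOn fun z hz => sw_Un hz

lemma dd_sw (e : VV n) (f : VV n → ℝ) (z : VV n) :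
    dd e (sw f) z = dd (e.2, e.1) f (z.2, z.1) := by
  unfold dd
  rw [sw_eq, (swL n).comp_right_fderiv]
  rfl

lemma By_sw (i : Fin n) (f : VV n → ℝ) (z : VV n) : By i f z = Ax i (sw f) (z.2, z.1) := by
  unfold By Ax
  rw [dy_eq, dx_eq, dd_sw]

lemma Ax_sw (i : Fin n) (f : VV n → ℝ) (z : VV n) : Ax i f z = By i (sw f) (z.2, z.1) := by
  rw [By_sw]
  rfl

lemma uu_sw : sw (uu : VV n → ℝ) = uu := by
  funext z
  unfold sw uu
  have h : sq (z.2 - z.1) = sq (z.1 - z.2) := by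
    unfold sq
    refine Finset.sum_congr rfl fun j _ => ?_
    simp only [Pi.sub_apply]
    ring
  rw [h]
  ring

lemma Gay_sw (s : MF n) (f h : VV n → ℝ) (z : VV n) :
    Gay s f h z = Gax s (sw f) (sw h) (z.2, z.1) := by
  unfold Gay Gax
  simp only [By_sw]

lemma sw_Gay (s : MF n) (f h : VV n → ℝ) : sw (Gay s f h) = Gax s (sw f) (sw h) := by
  funext z
  unfold sw
  rw [Gay_sw]
  rfl

lemma Gy_sw (s : MF n) (f h : VV n → ℝ) (z : VV n) :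
    Gy s f h z = Gx s (sw f) (sw h) (z.2, z.1) := by
  unfold Gy Gx
  rw [Gay_sw, Gay_sw, Gay_sw, sw_Gay, sw_Gay, sw_Gay, uu_sw]

/-- `cX`. -/
def cX (n : ℕ) : ℝ :=
  2 * (n + 1) * (n * (n * (2 * n + 1))) + 2 * (n * n * (n * (n * 2)) + n * n) + 6 * n ^ 4

lemma cX_nonneg (n : ℕ) : 0 ≤ cX n := by unfold cX; positivity

section bd

variable {ε : ℝ} {s s₁ s₂ : MF n} {z : VV n}

lemma Gy_le (h : TS n 3 ε s) (h0 : 0 ≤ ε) (h1 : ε ≤ 1) (hz : z ∈ Un n) {f : VV n → ℝ}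
    (hf : SU f) : |Gy s f f z - 2 * uu z * ∑ i, By i f z ^ 2| ≤
      cX n * (ε * (uu z * ∑ i, By i f z ^ 2)) := by
  have e1 := Gx_le h h0 h1 (sw_Un hz) (su_sw hf)
  have e2 : uu (z.2, z.1) = uu z := congrFun uu_sw z
  rw [e2] at e1
  simp only [← By_sw] at e1
  rw [← Gy_sw] at e1
  exact e1

lemma abs_mm_le (hz : z ∈ Un n) (i j : Fin n) : |mm i j z| ≤ 4 * uu z := by
  have hu := one_le_uu hz
  rw [mm_eq hz]
  have h1 := abs_kd_le i j
  have h2 := mul2_le (abs_x_le hz i) (abs_be_le hz j)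
  have h3 := mul2_le (abs_y_le hz j) (abs_al_le hz i)
  have h4 : |(uu z - 1) * z.1 i * z.2 j| ≤ (uu z - 1) * 1 * 1 :=
    mul3_le (le_of_eq (abs_of_nonneg (by linarith))) (abs_x_le hz i) (abs_y_le hz j)
  have h5 := abs_sub (-kd i j + z.1 i * be j z + z.2 j * al i z)
    ((uu z - 1) * z.1 i * z.2 j)
  have h6 := abs_add_le (-kd i j + z.1 i * be j z) (z.2 j * al i z)
  have h7 := abs_add_le (-kd i j) (z.1 i * be j z)
  rw [abs_neg] at h7
  linarith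

/-- The Euclidean length of `B f`. -/
def Y1 (f : VV n → ℝ) (z : VV n) : ℝ := √(∑ i, By i f z ^ 2)

lemma Y1_nonneg (f : VV n → ℝ) (z : VV n) : 0 ≤ Y1 f z := Real.sqrt_nonneg _

lemma Y1_sq (f : VV n → ℝ) (z : VV n) : Y1 f z ^ 2 = ∑ i, By i f z ^ 2 :=
  Real.sq_sqrt (Finset.sum_nonneg fun _ _ => sq_nonneg _)

lemma abs_By_le (f : VV n → ℝ) (z : VV n) (i : Fin n) : |By i f z| ≤ Y1 f z := by
  apply Real.abs_le_sqrt
  exact Finset.single_le_sum (f := fun i => By i f z ^ 2) (fun j _ => sq_nonneg _)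
    (Finset.mem_univ i)

/-- `(s₂ η)_k`. -/
def qj (s : MF n) (f : VV n → ℝ) (k : Fin n) (z : VV n) : ℝ := ∑ l, s z.2 k l * By l f z

lemma qj_sub_le (h : TS n 3 ε s) {f : VV n → ℝ} {X : ℝ} (hX : ∀ i, |By i f z| ≤ X)
    (h0 : 0 ≤ ε) (j : Fin n) : |qj s f j z - By j f z| ≤ n * (ε * X) := by
  have e1 : qj s f j z - By j f z = ∑ i, (s z.2 j i - kd j i) * By i f z := by
    simp only [sub_mul, Finset.sum_sub_distrib]
    rw [sum_kd j fun i => By i f z]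
    rfl
  rw [e1]
  refine abs_sum_le fun i => ?_
  rw [abs_mul]
  exact mul_le_mul (abs_s_sub h _ _ _) (hX i) (abs_nonneg _) h0

lemma qj_le (h : TS n 3 ε s) (h1 : ε ≤ 1) {f : VV n → ℝ} {X : ℝ} (hX : ∀ i, |By i f z| ≤ X)
    (j : Fin n) : |qj s f j z| ≤ n * (2 * X) := by
  refine abs_sum_le fun i => ?_
  rw [abs_mul]
  exact mul_le_mul (abs_s_le h h1 _ _ _) (hX i) (abs_nonneg _) (by norm_num)

lemma Gm_eq (hy : ∀ x, (s₁ x).IsSymm) (f : VV n → ℝ) (z : VV n) :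
    Gm s₁ s₂ f f z = ∑ i, ∑ k, pj s₁ f i z * mm i k z * qj s₂ f k z := by
  unfold Gm pj qj
  refine Finset.sum_congr rfl fun i _ => ?_
  rw [Finset.sum_comm]
  refine Finset.sum_congr rfl fun k _ => ?_
  rw [Finset.sum_mul, Finset.sum_mul_sum]
  refine Finset.sum_congr rfl fun j _ => Finset.sum_congr rfl fun l _ => ?_
  rw [(hy z.1).apply i j]
  ring

/-- `|Gm - cr| ≤ C ε u g2`. -/
lemma Gm_le (h : TS n 3 ε s₁) (h' : TS n 3 ε s₂) (h0 : 0 ≤ ε) (h1 : ε ≤ 1) (hz : z ∈ Un n)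
    (f : VV n → ℝ) : |Gm s₁ s₂ f f z - cr f z| ≤
      n * (n * ((n * (n * 2) + n) * 4)) * (ε * (uu z * g2 f z)) := by
  have hu := one_le_uu hz
  have hX := abs_Ax_le f z
  have hY := abs_By_le f z
  have hX0 := X1_nonneg f z
  have hY0 := Y1_nonneg f z
  have hn : (0 : ℝ) ≤ n := Nat.cast_nonneg n
  have e1 : Gm s₁ s₂ f f z - cr f z = ∑ i, ∑ k, ((pj s₁ f i z - Ax i f z) * qj s₂ f k z +
      Ax i f z * (qj s₂ f k z - By k f z)) * mm i k z := by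
    rw [Gm_eq h.sy]
    unfold cr
    rw [← Finset.sum_sub_distrib]
    refine Finset.sum_congr rfl fun i _ => ?_
    rw [← Finset.sum_sub_distrib]
    refine Finset.sum_congr rfl fun k _ => ?_
    ring
  have e2 : X1 f z * Y1 f z ≤ g2 f z := by
    unfold g2
    rw [← X1_sq, ← Y1_sq]
    nlinarith [sq_nonneg (X1 f z - Y1 f z), sq_nonneg (X1 f z), sq_nonneg (Y1 f z)]
  rw [e1]
  have e3 : |∑ i, ∑ k, ((pj s₁ f i z - Ax i f z) * qj s₂ f k z +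
      Ax i f z * (qj s₂ f k z - By k f z)) * mm i k z| ≤
      n * (n * ((n * (ε * X1 f z) * (n * (2 * Y1 f z)) + X1 f z * (n * (ε * Y1 f z))) *
        (4 * uu z))) := by
    refine abs_sum_le fun i => abs_sum_le fun k => mul2_le ?_ (abs_mm_le hz i k)
    exact (abs_add_le _ _).trans (add_le_add
      (mul2_le (pj_sub_le h hX h0 i) (qj_le h' h1 hY k))
      (mul2_le (hX i) (qj_sub_le h' hY h0 k)))
  refine e3.trans ?_
  have e4 : n * (n * ((n * (ε * X1 f z) * (n * (2 * Y1 f z)) + X1 f z * (n * (ε * Y1 f z))) *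
        (4 * uu z))) = n * (n * ((n * (n * 2) + n) * 4)) * (ε * (uu z * (X1 f z * Y1 f z))) := by
    ring
  rw [e4]
  gcongr

/-- The gradient form. -/
lemma grad_le (h : TS n 3 ε s₁) (h' : TS n 3 ε s₂) (h0 : 0 ≤ ε) (h1 : ε ≤ 1) (hz : z ∈ Un n)
    {f : VV n → ℝ} (hf : SU f) :
    |Gx s₁ f f z + Gy s₂ f f z + 4 * Gm s₁ s₂ f f z - (2 * uu z * g2 f z + 4 * cr f z)| ≤
      (cX n + 4 * (n * (n * ((n * (n * 2) + n) * 4)))) * (ε * (uu z * g2 f z)) := by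
  have e1 : |Gx s₁ f f z - 2 * uu z * ∑ i, Ax i f z ^ 2| ≤
      cX n * (ε * (uu z * ∑ i, Ax i f z ^ 2)) := Gx_le h h0 h1 hz hf
  have e2 := Gy_le h' h0 h1 hz hf
  have e3 := Gm_le h h' h0 h1 hz f
  have e4 : Gx s₁ f f z + Gy s₂ f f z + 4 * Gm s₁ s₂ f f z - (2 * uu z * g2 f z + 4 * cr f z) =
      (Gx s₁ f f z - 2 * uu z * ∑ i, Ax i f z ^ 2) + (Gy s₂ f f z - 2 * uu z *
        ∑ i, By i f z ^ 2) + 4 * (Gm s₁ s₂ f f z - cr f z) := by
    unfold g2; ring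
  rw [e4]
  have e5 := abs_add_le ((Gx s₁ f f z - 2 * uu z * ∑ i, Ax i f z ^ 2) + (Gy s₂ f f z -
    2 * uu z * ∑ i, By i f z ^ 2)) (4 * (Gm s₁ s₂ f f z - cr f z))
  have e6 := abs_add_le (Gx s₁ f f z - 2 * uu z * ∑ i, Ax i f z ^ 2) (Gy s₂ f f z -
    2 * uu z * ∑ i, By i f z ^ 2)
  have e7 : |4 * (Gm s₁ s₂ f f z - cr f z)| = 4 * |Gm s₁ s₂ f f z - cr f z| := by
    rw [abs_mul, abs_of_pos (by norm_num : (0 : ℝ) < 4)]
  have e8 : cX n * (ε * (uu z * g2 f z)) = cX n * (ε * (uu z * ∑ i, Ax i f z ^ 2)) +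
      cX n * (ε * (uu z * ∑ i, By i f z ^ 2)) := by
    unfold g2; ring
  have e9 : (cX n + 4 * (n * (n * ((n * (n * 2) + n) * 4)))) * (ε * (uu z * g2 f z)) =
      cX n * (ε * (uu z * g2 f z)) +
        4 * (n * (n * ((n * (n * 2) + n) * 4)) * (ε * (uu z * g2 f z))) := by
    ring
  rw [e9, e8]
  linarith

end bd

/-! ### The coefficient of `τ³` -/

lemma Fxs_eq (s : MF n) : (Fxs s : VV n → ℝ) = Gax s uu uu := rfl

lemma Fys_eq (s : MF n) : (Fys s : VV n → ℝ) = Gay s uu uu := rfl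

lemma su_Gay {s : MF n} (hs : SmM s) {f h : VV n → ℝ} (hf : SU f) (hh : SU h) :
    SU (Gay s f h) := by
  have h1 : Gay s f h = sw (Gax s (sw f) (sw h)) := by
    rw [← sw_Gay]; rfl
  rw [h1]
  exact su_sw (su_Gax hs (su_sw hf) (su_sw hh))

lemma Ax_add {g h : VV n → ℝ} (hg : SU g) (hh : SU h) {z : VV n} (hz : z ∈ Un n) (j : Fin n) :
    Ax j (fun z => g z + h z) z = Ax j g z + Ax j h z := by
  rw [Ax_eq]
  exact Dr_add hg hh hz

lemma By_add {g h : VV n → ℝ} (hg : SU g) (hh : SU h) {z : VV n} (hz : z ∈ Un n) (j : Fin n) :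
    By j (fun z => g z + h z) z = By j g z + By j h z := by
  rw [By_eq]
  exact Dr_add hg hh hz

lemma Gax_add (s : MF n) {f g h : VV n → ℝ} (hg : SU g) (hh : SU h) {z : VV n} (hz : z ∈ Un n) :
    Gax s f (fun z => g z + h z) z = Gax s f g z + Gax s f h z := by
  unfold Gax
  rw [← Finset.sum_add_distrib]
  refine Finset.sum_congr rfl fun i _ => ?_
  rw [← Finset.sum_add_distrib]
  refine Finset.sum_congr rfl fun j _ => ?_
  rw [Ax_add hg hh hz]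
  ring

lemma Gay_add (s : MF n) {f g h : VV n → ℝ} (hg : SU g) (hh : SU h) {z : VV n} (hz : z ∈ Un n) :
    Gay s f (fun z => g z + h z) z = Gay s f g z + Gay s f h z := by
  unfold Gay
  rw [← Finset.sum_add_distrib]
  refine Finset.sum_congr rfl fun i _ => ?_
  rw [← Finset.sum_add_distrib]
  refine Finset.sum_congr rfl fun j _ => ?_
  rw [By_add hg hh hz]
  ring

lemma Gx_uu (s : MF n) (z : VV n) : Gx s uu uu z = Gax s uu (Gax s uu uu) z := by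
  unfold Gx; ring

lemma Gy_uu (s : MF n) (z : VV n) : Gy s uu uu z = Gay s uu (Gay s uu uu) z := by
  unfold Gy; ring

/-- `Γ_y(u, Γ_x(u, u)) = 2 (s₁ α) · m (s₂ β)`. -/
lemma Gay_Gax {s₁ s₂ : MF n} (hs : SmM s₁) (hy : ∀ x, (s₁ x).IsSymm) (hy' : ∀ x, (s₂ x).IsSymm)
    {z : VV n} (hz : z ∈ Un n) : Gay s₂ uu (Gax s₁ uu uu) z = 2 * Gm s₁ s₂ uu uu z := by
  rw [Gm_eq hy]
  have h1 : ∀ j, By j (Gax s₁ uu uu) z = 2 * ∑ k, pj s₁ uu k z * mm k j z := by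
    intro j
    rw [By_Gax hs su_uu su_uu hz]
    have e1 : ∀ k l, s₁ z.1 k l * By j (Ax k uu) z * Ax l uu z +
        s₁ z.1 k l * Ax k uu z * By j (Ax l uu) z =
        s₁ z.1 k l * al l z * mm k j z + s₁ z.1 k l * al k z * mm l j z := by
      intro k l
      have e2 : By j (Ax k uu) z = mm k j z := By_al hz k j
      have e3 : By j (Ax l uu) z = mm l j z := By_al hz l j
      rw [e2, e3]
      show s₁ z.1 k l * mm k j z * al l z + s₁ z.1 k l * al k z * mm l j z = _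
      ring
    simp only [e1, Finset.sum_add_distrib]
    have e4 : ∑ k, ∑ l, s₁ z.1 k l * al l z * mm k j z = ∑ k, pj s₁ uu k z * mm k j z := by
      refine Finset.sum_congr rfl fun k _ => ?_
      unfold pj
      rw [Finset.sum_mul]
      refine Finset.sum_congr rfl fun l _ => ?_
      rw [(hy z.1).apply k l]
      rfl
    have e5 : ∑ k, ∑ l, s₁ z.1 k l * al k z * mm l j z = ∑ k, pj s₁ uu k z * mm k j z := by
      rw [Finset.sum_comm]
      refine Finset.sum_congr rfl fun k _ => ?_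
      unfold pj
      rw [Finset.sum_mul]
      rfl
    rw [e4, e5]
    ring
  have h2 : Gay s₂ uu (Gax s₁ uu uu) z = ∑ j, qj s₂ uu j z * By j (Gax s₁ uu uu) z := by
    unfold Gay qj
    rw [Finset.sum_comm]
    refine Finset.sum_congr rfl fun j _ => ?_
    rw [Finset.sum_mul]
    refine Finset.sum_congr rfl fun i _ => ?_
    rw [(hy' z.2).apply i j]
  rw [h2]
  simp only [h1]
  rw [Finset.sum_comm, Finset.mul_sum]
  refine Finset.sum_congr rfl fun j _ => ?_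
  rw [Finset.mul_sum, Finset.mul_sum, Finset.mul_sum]
  refine Finset.sum_congr rfl fun i _ => ?_
  ring

lemma Gm_sw {s₁ s₂ : MF n} (hy : ∀ x, (s₁ x).IsSymm) (hy' : ∀ x, (s₂ x).IsSymm) {z : VV n}
    (hz : z ∈ Un n) : Gm s₂ s₁ uu uu (z.2, z.1) = Gm s₁ s₂ uu uu z := by
  have hm : ∀ i k, mm i k (z.2, z.1) = mm k i z := by
    intro i k
    have h1 := By_al hz k i
    rw [← h1, By_sw]
    show Ax i (By k uu) (z.2, z.1) = Ax i (sw (Ax k uu)) (z.2, z.1)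
    congr 1
    funext w
    show By k uu w = Ax k uu (w.2, w.1)
    rw [By_sw, uu_sw]
  have ha : ∀ j, Ax j uu (z.2, z.1) = By j uu z := fun j => by rw [By_sw, uu_sw]
  have hb : ∀ j, By j uu (z.2, z.1) = Ax j uu z := fun j => by rw [Ax_sw, uu_sw]
  have hp : ∀ i, pj s₂ uu i (z.2, z.1) = qj s₂ uu i z := by
    intro i
    unfold pj qj
    refine Finset.sum_congr rfl fun l _ => ?_
    rw [ha, (hy' z.2).apply i l]
  have hq : ∀ i, qj s₁ uu i (z.2, z.1) = pj s₁ uu i z := by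
    intro i
    unfold pj qj
    refine Finset.sum_congr rfl fun l _ => ?_
    rw [hb, (hy z.1).apply l i]
  rw [Gm_eq hy', Gm_eq hy]
  simp only [hm, hp, hq]
  rw [Finset.sum_comm]
  refine Finset.sum_congr rfl fun i _ => Finset.sum_congr rfl fun k _ => ?_
  ring

/-- `Γ_x(u, Γ_y(u, u)) = 2 (s₁ α) · m (s₂ β)`. -/
lemma Gax_Gay {s₁ s₂ : MF n} (hs : SmM s₂) (hy : ∀ x, (s₁ x).IsSymm) (hy' : ∀ x, (s₂ x).IsSymm)
    {z : VV n} (hz : z ∈ Un n) : Gax s₁ uu (Gay s₂ uu uu) z = 2 * Gm s₁ s₂ uu uu z := by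
  have h1 : Gay s₁ uu (Gax s₂ uu uu) (z.2, z.1) = Gax s₁ uu (Gay s₂ uu uu) z := by
    rw [Gay_sw, uu_sw]
    show Gax s₁ uu (sw (Gax s₂ uu uu)) z = _
    have h2 : sw (Gax s₂ uu uu) = Gay s₂ uu uu := by
      have h3 := sw_Gay s₂ uu uu
      rw [uu_sw] at h3
      rw [← h3]
      rfl
    rw [h2]
  rw [← h1, Gay_Gax hs hy' hy (sw_Un hz), Gm_sw hy hy' hz]

/-- The coefficient of `τ³` is the gradient form of `u`. -/
lemma tau3 {ε : ℝ} {s₁ s₂ : MF n} (h : TS n 3 ε s₁) (h' : TS n 3 ε s₂) {z : VV n}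
    (hz : z ∈ Un n) : Gax s₁ uu (fun z => Fxs s₁ z + Fys s₂ z) z
      + Gay s₂ uu (fun z => Fxs s₁ z + Fys s₂ z) z =
    Gx s₁ uu uu z + Gy s₂ uu uu z + 4 * Gm s₁ s₂ uu uu z := by
  have hf : SU (Fxs s₁) := su_Gax h.sm su_uu su_uu
  have hg : SU (Fys s₂) := su_Gay h'.sm su_uu su_uu
  rw [Gax_add s₁ hf hg hz, Gay_add s₂ hf hg hz, Fxs_eq, Fys_eq, Gx_uu, Gy_uu,
    Gax_Gay h'.sm h.sy h'.sy hz, Gay_Gax h.sm h.sy h'.sy hz]
  ring

lemma g2_uu {z : VV n} (hz : z ∈ Un n) : g2 uu z = 2 * (uu z ^ 2 - 1) := by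
  have h1 : ∑ i, Ax i uu z ^ 2 = uu z ^ 2 - 1 := sum_al_pow hz
  have h2 : ∑ i, By i uu z ^ 2 = uu z ^ 2 - 1 := sum_be_pow hz
  unfold g2
  rw [h1, h2]
  ring

lemma cr_uu {z : VV n} (hz : z ∈ Un n) : cr uu z = uu z * (uu z ^ 2 - 1) := by
  have h1 : cr uu z = ∑ i, al i z * ∑ j, mm i j z * be j z := by
    unfold cr
    refine Finset.sum_congr rfl fun i _ => ?_
    rw [Finset.mul_sum]
    refine Finset.sum_congr rfl fun j _ => ?_
    show al i z * mm i j z * be j z = _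
    ring
  rw [h1]
  simp only [sum_mm_be hz]
  rw [← sum_al_pow hz, Finset.mul_sum]
  exact Finset.sum_congr rfl fun i _ => by ring

lemma ps_eq {z : VV n} (hz : z ∈ Un n) : uu z ^ 2 * ps z = uu z * (uu z ^ 2 - 1) := by
  have hu := one_le_uu hz
  unfold ps
  field_simp

lemma tri4 (a b c d : ℝ) : |a + b + c + d| ≤ |a| + |b| + |c| + |d| :=
  (abs_add_le _ _).trans (add_le_add ((abs_add_le _ _).trans
    (add_le_add (abs_add_le _ _) le_rfl)) le_rfl)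

/-- Arithmetic of the assembly. -/
lemma fin_arith {n C₀ C₁ ε τ u U g f2 G G3 Z H : ℝ} (hC₀ : 0 < C₀) (hC₁ : 0 ≤ C₁) (h0 : 0 ≤ ε)
    (hτ : 0 ≤ τ) (hu : 0 ≤ u) (hU : 0 ≤ U) (hg : 0 ≤ g) (hf : 0 ≤ f2)
    (hG : |G - H| ≤ C₁ * (ε * (u * g)))
    (hG3 : |G3 - 8 * U| ≤ C₁ * (ε * (2 * U)))
    (hZ : |Z| ≤ (2 * n ^ 2 + 4 * C₀) * u) :
    |τ * G + τ * Z * f2 + τ ^ 3 * G3 * f2 - (τ * H + 8 * τ ^ 3 * U * f2)| ≤
      (2 * C₁ + (2 * n ^ 2 + 4 * C₀)) * ε * (τ * u * g + τ ^ 3 * U * f2) +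
        (2 * C₁ + (2 * n ^ 2 + 4 * C₀)) * τ * u * f2 := by
  have e2 : τ * G + τ * Z * f2 + τ ^ 3 * G3 * f2 - (τ * H + 8 * τ ^ 3 * U * f2) =
      τ * (G - H) + τ ^ 3 * f2 * (G3 - 8 * U) + τ * f2 * Z := by ring
  rw [e2]
  have hτ3 : 0 ≤ τ ^ 3 * f2 := by positivity
  have hτf : 0 ≤ τ * f2 := by positivity
  have t1 : |τ * (G - H)| ≤ τ * (C₁ * (ε * (u * g))) := by
    rw [abs_mul, abs_of_nonneg hτ]
    exact mul_le_mul_of_nonneg_left hG hτ
  have t2 : |τ ^ 3 * f2 * (G3 - 8 * U)| ≤ τ ^ 3 * f2 * (C₁ * (ε * (2 * U))) := by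
    rw [abs_mul, abs_of_nonneg hτ3]
    exact mul_le_mul_of_nonneg_left hG3 hτ3
  have t3 : |τ * f2 * Z| ≤ τ * f2 * ((2 * n ^ 2 + 4 * C₀) * u) := by
    rw [abs_mul, abs_of_nonneg hτf]
    exact mul_le_mul_of_nonneg_left hZ hτf
  have t4 := (abs_add_le (τ * (G - H) + τ ^ 3 * f2 * (G3 - 8 * U)) (τ * f2 * Z)).trans
    (add_le_add ((abs_add_le _ _).trans (add_le_add t1 t2)) t3)
  refine t4.trans ?_
  have p1 : 0 ≤ ε * (τ * u * g) := by positivity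
  have p2 : 0 ≤ ε * (τ ^ 3 * U * f2) := by positivity
  have p3 : 0 ≤ τ * u * f2 := by positivity
  have hK : 0 ≤ 2 * n ^ 2 + 4 * C₀ := by positivity
  have q1 := mul_nonneg hC₁ p1
  have q2 := mul_nonneg hK p1
  have q3 := mul_nonneg hK p2
  have q4 := mul_nonneg hC₁ p3
  linarith

end Vale.Agent.P088.HY.EQB

namespace Vale.Agent.P088.HY

open EQB

/-- (EQB) -/
theorem rowEQB (hE : RowEBD) : RowEQB := by
  intro n
  obtain ⟨C₀, hC₀, hE⟩ := hE n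
  have hC₁' : 0 ≤ cX n + 4 * (n * (n * ((n * (n * 2) + n) * 4))) := by
    have := cX_nonneg n
    positivity
  refine ⟨2 * (cX n + 4 * (n * (n * ((n * (n * 2) + n) * 4)))) + (2 * n ^ 2 + 4 * C₀),
    by positivity, ?_⟩
  intro ε s₁ s₂ h0 h1 h h' τ hτ f hf z hz
  obtain ⟨-, -, -, -, -, -, b1, b2, b3, b4, b5, b6⟩ := hE ε s₁ s₂ h0 h1 h h' z hz
  have hu := one_le_uu hz
  have hg := grad_le h h' h0 h1 hz hf
  have hg' := grad_le h h' h0 h1 hz su_uu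
  rw [← tau3 h h' hz, g2_uu hz, cr_uu hz] at hg'
  have hg2 : 0 ≤ g2 f z := by unfold g2; positivity
  have hps : 0 ≤ uu z * (uu z ^ 2 - 1) := mul_nonneg (by linarith) (by nlinarith)
  have hεu : C₀ * ε * uu z ≤ C₀ * uu z := by
    have : C₀ * ε ≤ C₀ * 1 := mul_le_mul_of_nonneg_left h1 hC₀.le
    nlinarith
  have hZ' : |-(1 / 2) * (L0x s₁ (kax s₁) z + L0y s₂ (kay s₂) z + L0x s₁ (kay s₂) z
      + L0y s₂ (kax s₁) z) + Gax s₁ uu (vx s₁) z + Gay s₂ uu (vy s₂) z| ≤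
      (2 * n ^ 2 + 4 * C₀) * uu z := by
    have hnu : 0 ≤ (n : ℝ) ^ 2 * uu z := by positivity
    have hCu : 0 ≤ C₀ * uu z := by positivity
    rw [abs_le] at b1 b2 b3 b4 b5 b6 ⊢
    constructor <;> linarith [b1.1, b1.2, b2.1, b2.2, b3.1, b3.2, b4.1, b4.2, b5.1, b5.2,
      b6.1, b6.2]
  have hg3 : |Gax s₁ uu (fun z => Fxs s₁ z + Fys s₂ z) z +
      Gay s₂ uu (fun z => Fxs s₁ z + Fys s₂ z) z - 8 * (uu z ^ 2 * ps z)| ≤
      (cX n + 4 * (n * (n * ((n * (n * 2) + n) * 4)))) * (ε * (2 * (uu z ^ 2 * ps z))) := by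
    rw [ps_eq hz]
    refine (le_of_eq ?_).trans (hg'.trans (le_of_eq ?_))
    · congr 1
      ring
    · ring
  have key := fin_arith (n := n) (τ := τ) hC₀ hC₁' h0 (by linarith) (by linarith)
    (by rw [ps_eq hz]; exact hps) hg2 (sq_nonneg (f z)) hg hg3 hZ'
  have e1 : 2 * τ * Hp f z = τ * (2 * uu z * g2 f z + 4 * cr f z) := by
    unfold Hp; ring
  rw [e1]
  exact key

end Vale.Agent.P088.HY
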