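import Vale.Agent.P088.H607.K.BdF
import Vale.Agent.P088.R2.H551.B.Spec

/-!
# P088, two pairs on a smooth domain, general base tensor: limits of the two sides of the energy
estimate along quasimodes (row JB-BD, first part)
-/

open MeasureTheory Set Filter
open scoped ContDiff Matrix Topology

noncomputable section

namespace Vale.Agent.P088.PJ.Bd.H281

open Vale.Agent.P088.LR Vale.Agent.P088.LR.B Vale.Agent.P088.LR.B.H43 Vale.Agent.P088.LR.U
  Vale.Agent.P088.LR.H158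
open Vale.Agent.P088.H607.K (Lm BL Con cdL cdu auR ofReal_sm nsq_sm smC_sub cd_split sq_dot gq
  gq_sum ibpL)
open Vale.Agent.P088.PJ.Bd (zt)

variable {n N : ℕ} {ρ : V n → ℝ} {Z : ℕ → ℝ} {p : V n}

section key

variable {m : ℕ} {τ : V n} {η : Fin N → ℂ} {u : ℕ → V n → Fin N → ℂ}
  {s t : MF n} {A₁ A : Cn n N} {β : ℂ}

/-- the integrand of the left side -/
def LG (s t : MF n) (A₁ A : Cn n N) (u : ℕ → V n → Fin N → ℂ) (M : ℕ) (x : V n) : ℂ :=
  ∑ i, ∑ j, (((t x i j - s x i j : ℝ) : ℂ) * (cd A i (u M) x ⬝ᵥ star (cd A j (u M) x)) +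
    ((s x i j : ℝ) : ℂ) *
      (cd A₁ i (u M) x ⬝ᵥ star ((A j x - A₁ j x) *ᵥ u M x) +
        ((A i x - A₁ i x) *ᵥ u M x) ⬝ᵥ star (cd A₁ j (u M) x) +
        ((A i x - A₁ i x) *ᵥ u M x) ⬝ᵥ star ((A j x - A₁ j x) *ᵥ u M x)))

/-- the integrand of the right side -/
def RG (ρ : V n → ℝ) (s t : MF n) (A₁ A : Cn n N) (u : ℕ → V n → Fin N → ℂ) (M : ℕ)
    (x : V n) : ℝ :=
  (∑ i, ∑ j, |t x i j - s x i j| ^ 2) * ∑ j, ∑ l, ‖cd A₁ j (u M) x l‖ ^ 2 +
    (∑ i, ∑ α, ∑ β, ‖A i x α β - A₁ i x α β‖ ^ 2) *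
      ((∑ l, ‖u M x l‖ ^ 2) + ρ x ^ 2 * ∑ j, ∑ l, ‖cd A₁ j (u M) x l‖ ^ 2)

/-- the left side is the integral of `LG` -/
lemma ea_diffG (hρ : Dom ρ) (hs : SmM s) (ht : SmM t) (hA₁ : SmU A₁) (hA : SmU A)
    (hu : ∀ M, ContDiff ℝ ∞ (u M)) (M : ℕ) :
    ea (Om ρ) t A (u M) (u M) - ea (Om ρ) s A₁ (u M) (u M) =
      ∫ x in Om ρ, LG s t A₁ A u M x := by
  have cdc : ∀ {B : Cn n N}, SmU B → ∀ i, ContDiff ℝ ∞ (cd B i (u M)) := fun hB i =>
    contDiff_cd hB (hu M) i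
  have dotc : ∀ {B : Cn n N}, SmU B → ∀ i j,
      Continuous fun x => cd B i (u M) x ⬝ᵥ star (cd B j (u M) x) := by
    intro B hB i j
    simp only [dotProduct, Pi.star_apply]
    exact continuous_finsetSum _ fun l _ => ((contDiff_pi.1 (cdc hB i)) l).continuous.mul
      (contDiff_star ((contDiff_pi.1 (cdc hB j)) l)).continuous
  unfold ea
  rw [← integral_sub]
  · refine integral_congr_ae (Eventually.of_forall fun x => ?_)
    show (∑ i, ∑ j, (t x i j : ℂ) * (cd A i (u M) x ⬝ᵥ star (cd A j (u M) x))) -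
      (∑ i, ∑ j, (s x i j : ℂ) * (cd A₁ i (u M) x ⬝ᵥ star (cd A₁ j (u M) x))) =
      LG s t A₁ A u M x
    unfold LG
    rw [← Finset.sum_sub_distrib]
    refine Finset.sum_congr rfl fun i _ => ?_
    rw [← Finset.sum_sub_distrib]
    refine Finset.sum_congr rfl fun j _ => ?_
    rw [cd_split (A := A) (A₁ := A₁) i (u M) x, cd_split (A := A) (A₁ := A₁) j (u M) x, star_add,
      add_dotProduct, dotProduct_add, dotProduct_add]
    push_cast
    ring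
  · exact om_int hρ (continuous_finsetSum _ fun i _ => continuous_finsetSum _ fun j _ =>
      (Complex.continuous_ofReal.comp (ht i j).continuous).mul (dotc hA i j))
  · exact om_int hρ (continuous_finsetSum _ fun i _ => continuous_finsetSum _ fun j _ =>
      (Complex.continuous_ofReal.comp (hs i j).continuous).mul (dotc hA₁ i j))

/-- comparison of the two sides -/
lemma cmpG {Λ r : ℂ} {C : ℝ} {E lam : ℕ → V n → ℝ} {L : ℕ → V n → ℂ} (hZ : ∀ M, 0 < Z M)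
    (hL : Lm ρ Z L Λ) (hR : Lm ρ Z (fun M x => ((E M x : ℝ) : ℂ)) r)
    (hlam : Tendsto (fun M => (Z M)⁻¹ * ∫ x in Om ρ, lam M x) atTop (𝓝 0))
    (h : ∀ M, ‖∫ x in Om ρ, L M x‖ ≤ C * ((∫ x in Om ρ, E M x) + ∫ x in Om ρ, lam M x))
    (hE : ∀ M x, 0 ≤ E M x) : ‖Λ‖ ≤ C * ‖r‖ := by
  have h0 : ‖Λ‖ ≤ C * (‖r‖ + 0) := by
    refine le_of_tendsto_of_tendsto' hL.2.norm ((hR.2.norm.add hlam).const_mul C) fun M => ?_
    have h1 : ∫ x in Om ρ, ((E M x : ℝ) : ℂ) = ((∫ x in Om ρ, E M x : ℝ) : ℂ) := integral_ofReal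
    have h8' : ‖(((Z M : ℝ) : ℂ))⁻¹‖ = (Z M)⁻¹ := by
      rw [norm_inv, Complex.norm_real, Real.norm_of_nonneg (hZ M).le]
    rw [h1, norm_mul, norm_mul, Complex.norm_real,
      Real.norm_of_nonneg (integral_nonneg fun x => hE M x), h8']
    have h9 := mul_le_mul_of_nonneg_left (h M) (inv_nonneg.2 (hZ M).le)
    linarith
  rwa [add_zero] at h0

lemma RG_nonneg (M : ℕ) (x : V n) : 0 ≤ RG ρ s t A₁ A u M x := by
  unfold RG
  positivity

lemma RG_cast (M : ℕ) (x : V n) : ((RG ρ s t A₁ A u M x : ℝ) : ℂ) =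
    (((∑ i, ∑ j, |t x i j - s x i j| ^ 2 : ℝ)) : ℂ) *
      ∑ j, cd A₁ j (u M) x ⬝ᵥ star (cd A₁ j (u M) x) +
    ((∑ i, ∑ α, ∑ β, ‖A i x α β - A₁ i x α β‖ ^ 2 : ℝ) : ℂ) *
      (u M x ⬝ᵥ star (u M x) +
        ((ρ x ^ 2 : ℝ) : ℂ) * ∑ j, cd A₁ j (u M) x ⬝ᵥ star (cd A₁ j (u M) x)) := by
  unfold RG
  have h1 : ((∑ j, ∑ l, ‖cd A₁ j (u M) x l‖ ^ 2 : ℝ) : ℂ) =
      ∑ j, cd A₁ j (u M) x ⬝ᵥ star (cd A₁ j (u M) x) := by
    rw [Complex.ofReal_sum]
    exact Finset.sum_congr rfl fun j _ => sq_dot _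
  rw [Complex.ofReal_add, Complex.ofReal_mul, Complex.ofReal_mul, Complex.ofReal_add,
    Complex.ofReal_mul, h1, sq_dot]

/-- `θ = - 2 Re β / (k + 1)` -/
def thB (k : ℕ) (β : ℂ) : ℂ := ((-(((k : ℝ) + 1)⁻¹ * (2 * β.re)) : ℝ) : ℂ)

lemma thB_real (k : ℕ) (β : ℂ) : star (thB k β) = thB k β := Complex.conj_ofReal _

lemma zt_add (τ : V n) (β : ℂ) (j : Fin n) :
    zt ρ p τ β j + star (zt ρ p τ β j) = ((2 * β.re * pd j ρ p : ℝ) : ℂ) := by
  have h1 : star ((pd j ρ p : ℝ) : ℂ) = ((pd j ρ p : ℝ) : ℂ) := Complex.conj_ofReal _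
  have h2 : star ((τ j : ℝ) : ℂ) = ((τ j : ℝ) : ℂ) := Complex.conj_ofReal _
  have h3 : star Complex.I = -Complex.I := Complex.conj_I
  have h4 : β + star β = ((2 * β.re : ℝ) : ℂ) := Complex.add_conj β
  simp only [zt, star_add, star_mul', h1, h2, h3]
  rw [Complex.ofReal_mul, ← h4]
  ring

lemma zt_sub (τ : V n) (β : ℂ) (j : Fin n) :
    zt ρ p τ β j - star (zt ρ p τ β j) =
      2 * Complex.I * ((τ j + β.im * pd j ρ p : ℝ) : ℂ) := by
  have h1 : star ((pd j ρ p : ℝ) : ℂ) = ((pd j ρ p : ℝ) : ℂ) := Complex.conj_ofReal _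
  have h2 : star ((τ j : ℝ) : ℂ) = ((τ j : ℝ) : ℂ) := Complex.conj_ofReal _
  have h3 : star Complex.I = -Complex.I := Complex.conj_I
  have h4 : β - star β = ((2 * β.im : ℝ) : ℂ) * Complex.I := Complex.sub_conj β
  simp only [zt, star_add, star_mul', h1, h2, h3]
  push_cast at h4 ⊢
  linear_combination ((pd j ρ p : ℝ) : ℂ) * h4

/-- weight `ρ^k`, one derivative -/
lemma D1G (hρ : Dom ρ) {k : ℕ} {c : ℝ} (hc : 0 < c) {ν : V n} (hν1 : ∑ i, ν i ^ 2 = 1)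
    (hp : ρ p = 0) (hν : ∀ i, pd i ρ p = c * ν i) (h : Con ρ Z p (k + 1) (zt ρ p τ β) η u)
    (i : Fin n) :
    BL ρ Z p (fun x => ρ x ^ k) (fun M => pd i (u M)) u
      (fun l l' => thB k β * zt ρ p τ β i * (η l * star (η l'))) := by
  refine (ibpL hρ hc hν1 hp hν k (fun M => H158.contDiff_pd (h.su M) i) h.su (h.h3 i)
    (fun j => h.h2 j i) (fun j => h.h1 i j)).of_eq fun l l' => ?_
  have h1 : ∀ j, (ν j : ℂ) * (zt ρ p τ β j * zt ρ p τ β i * (η l * star (η l')) +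
      zt ρ p τ β i * star (zt ρ p τ β j) * (η l * star (η l'))) =
      ((ν j ^ 2 : ℝ) : ℂ) * ((c : ℂ) * ((2 * β.re : ℝ) : ℂ) * zt ρ p τ β i *
        (η l * star (η l'))) := by
    intro j
    have h2 := zt_add (ρ := ρ) (p := p) τ β j
    rw [hν j] at h2
    push_cast at h2 ⊢
    linear_combination ((ν j : ℂ) * zt ρ p τ β i * (η l * star (η l'))) * h2
  simp only [h1]
  rw [← Finset.sum_mul, ← Complex.ofReal_sum, hν1, Complex.ofReal_one, one_mul]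
  have hc' : (c : ℂ) ≠ 0 := by exact_mod_cast hc.ne'
  have hm' : ((k : ℂ) + 1) ≠ 0 := by exact_mod_cast Nat.succ_ne_zero k
  unfold thB
  push_cast
  field_simp

/-- weight `ρ^k`, no derivative -/
lemma D2G (hρ : Dom ρ) {k : ℕ} {c : ℝ} (hc : 0 < c) {ν : V n} (hν1 : ∑ i, ν i ^ 2 = 1)
    (hp : ρ p = 0) (hν : ∀ i, pd i ρ p = c * ν i) {ζ : Fin n → ℂ}
    (h : Con ρ Z p (k + 1) ζ η u) :
    BL ρ Z p (fun x => ρ x ^ k) u u (fun _ _ => 0) := by
  refine (ibpL hρ hc hν1 hp hν k h.su h.su h.h4 h.h3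
    (fun j => (h.h3 j).swap hρ)).of_eq fun l l' => ?_
  simp

/-- **The limit, order `k + 1`.** -/
lemma keySG (hρ : Dom ρ) (hZ : ∀ M, 0 < Z M) {k : ℕ} {c : ℝ} (hc : 0 < c) {ν : V n}
    (hν1 : ∑ i, ν i ^ 2 = 1) (hp : ρ p = 0)
    (hν : ∀ i, pd i ρ p = c * ν i) (h : Con ρ Z p (k + 1) (zt ρ p τ β) η u)
    (hs : SmM s) (hA₁ : SmU A₁) (hA : SmU A)
    {b : Fin n → Fin n → V n → ℝ} {a : Fin n → MC n N} (hb : ∀ i j, ContDiff ℝ ∞ (b i j))
    (ha : ∀ i, SmC (a i)) (eb : ∀ i j x, t x i j - s x i j = ρ x ^ (k + 1) * b i j x)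
    (ea : ∀ i x, ((ρ x : ℝ) : ℂ) • (A i x - A₁ i x) = ((ρ x ^ (k + 1) : ℝ) : ℂ) • a i x)
    {C : ℝ} {lam : ℕ → V n → ℝ}
    (hlam : Tendsto (fun M => (Z M)⁻¹ * ∫ x in Om ρ, lam M x) atTop (𝓝 0))
    (hen : ∀ M, ‖∫ x in Om ρ, LG s t A₁ A u M x‖ ≤
      C * ((∫ x in Om ρ, RG ρ s t A₁ A u M x) + ∫ x in Om ρ, lam M x)) :
    (∑ i, ∑ j, ((b i j p : ℝ) : ℂ) * (zt ρ p τ β i * star (zt ρ p τ β j))) * (η ⬝ᵥ star η) +
      ∑ i, ∑ j, ((s p i j : ℝ) : ℂ) * (thB k β * zt ρ p τ β i * gq η (a j p) +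
        star (thB k β * zt ρ p τ β j * gq η (a i p))) = 0 := by
  have d1 := D1G hρ hc hν1 hp hν h
  have d2 := D2G hρ hc hν1 hp hν h
  have hα : ∀ i, ∀ x ∈ Om ρ, A i x - A₁ i x = ((ρ x ^ k : ℝ) : ℂ) • a i x := by
    intro i x hx
    have hx' : ((ρ x : ℝ) : ℂ) ≠ 0 := by
      have : 0 < ρ x := hx
      exact_mod_cast this.ne'
    have h1 := ea i x
    have h2 : ((ρ x ^ (k + 1) : ℝ) : ℂ) • a i x =
        ((ρ x : ℝ) : ℂ) • (((ρ x ^ k : ℝ) : ℂ) • a i x) := by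
      rw [smul_smul]
      congr 1
      push_cast
      ring
    rw [h2] at h1
    exact smul_right_injective _ hx' h1
  have E1 : ∀ i j, BL ρ Z p (fun x => ρ x ^ (k + 1)) (fun M => cd A i (u M))
      (fun M => cd A j (u M))
      (fun l l' => zt ρ p τ β i * star (zt ρ p τ β j) * (η l * star (η l'))) :=
    fun i j => cdL hρ (h.h1 i j) (h.h3 i) (h.h3 j) h.h4 (hA.1 i) (hA.1 j)
  have E2 : ∀ j, BL ρ Z p (fun x => ρ x ^ (k + 1)) (fun M => cd A₁ j (u M))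
      (fun M => cd A₁ j (u M))
      (fun l l' => zt ρ p τ β j * star (zt ρ p τ β j) * (η l * star (η l'))) :=
    fun j => cdL hρ (h.h1 j j) (h.h3 j) (h.h3 j) h.h4 (hA₁.1 j) (hA₁.1 j)
  have X : ∀ i j, BL ρ Z p (fun x => ρ x ^ k) (fun M => cd A₁ i (u M))
      (fun M x => a j x *ᵥ u M x)
      (fun l l' => ∑ r, star (a j p l' r) * (thB k β * zt ρ p τ β i * (η l * star (η r)))) :=
    fun i j => auR hρ (cdu hρ (d1 i) d2 (hA₁.1 i)) (ha j)
  have Y : ∀ i j, BL ρ Z p (fun x => ρ x ^ k) (fun M x => a i x *ᵥ u M x)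
      (fun M x => a j x *ᵥ u M x) (fun _ _ => 0) := fun i j =>
    (auR hρ (d2.mul_l hρ (ha i)) (ha j)).of_eq fun l l' => by simp
  -- left side
  have T1 := fun i j => (E1 i j).dot hρ (ofReal_sm (hb i j))
  have T2 := fun i j => (X i j).dot hρ (ofReal_sm (hs i j))
  have T3 := fun i j => ((X j i).swap hρ).dot hρ (ofReal_sm (hs i j))
  have T4 := fun i j => (Y i j).dot hρ (ofReal_sm ((hs i j).mul (hρ.sm.pow k)))
  have T := Lm.sum fun i => Lm.sum fun j => (T1 i j).add (((T2 i j).add (T3 i j)).add (T4 i j))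
  have T' := T.congr hρ (g' := LG s t A₁ A u) (fun M x hx => by
    unfold LG
    refine Finset.sum_congr rfl fun i _ => Finset.sum_congr rfl fun j _ => ?_
    congr 1
    · rw [eb i j x]
      push_cast
      ring
    · have hst : star ((ρ x ^ k : ℝ) : ℂ) = ((ρ x ^ k : ℝ) : ℂ) := Complex.conj_ofReal _
      rw [hα i x hx, hα j x hx, Matrix.smul_mulVec, Matrix.smul_mulVec, star_smul, hst]
      simp only [dotProduct_smul, smul_dotProduct, smul_eq_mul]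
      push_cast
      ring)
  -- right side
  set B : V n → ℝ := fun x => ∑ i, ∑ j, b i j x ^ 2 with hB
  have hBs : ContDiff ℝ ∞ B := ContDiff.sum fun i _ => ContDiff.sum fun j _ => (hb i j).pow 2
  set a2 : V n → ℝ := fun x => ∑ i, ∑ α, ∑ β, ‖a i x α β‖ ^ 2 with ha2
  have ha2s : ContDiff ℝ ∞ a2 := ContDiff.sum fun i _ => ContDiff.sum fun α _ =>
    ContDiff.sum fun β _ => nsq_sm (ha i α β)
  have U1 := Lm.sum fun j => (E2 j).dot hρ (ofReal_sm ((hρ.sm.pow (k + 1)).mul hBs))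
  have U2 := d2.dot hρ (ofReal_sm ((hρ.sm.pow k).mul ha2s))
  have U3 := Lm.sum fun j => (E2 j).dot hρ (ofReal_sm ((hρ.sm.pow (k + 1)).mul ha2s))
  have U := U1.add (U2.add U3)
  have U' := U.congr hρ (g' := fun M x => ((RG ρ s t A₁ A u M x : ℝ) : ℂ)) (fun M x hx => by
    rw [RG_cast]
    have s1 : ∑ i, ∑ j, |t x i j - s x i j| ^ 2 = ρ x ^ (k + 1) * (ρ x ^ (k + 1) * B x) := by
      simp only [eb, hB, Finset.mul_sum, sq_abs]
      exact Finset.sum_congr rfl fun i _ => Finset.sum_congr rfl fun j _ => by ring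
    have s2 : ∑ i, ∑ α, ∑ β, ‖A i x α β - A₁ i x α β‖ ^ 2 = ρ x ^ k * (ρ x ^ k * a2 x) := by
      simp only [ha2, Finset.mul_sum]
      refine Finset.sum_congr rfl fun i _ => Finset.sum_congr rfl fun α _ =>
        Finset.sum_congr rfl fun β _ => ?_
      have h1 : A i x α β - A₁ i x α β = ((ρ x ^ k : ℝ) : ℂ) * a i x α β := by
        have := congrFun (congrFun (hα i x hx) α) β
        simpa using this
      rw [h1, norm_mul, Complex.norm_real, mul_pow, Real.norm_eq_abs, sq_abs]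
      ring
    rw [s1, s2]
    simp only [← Finset.mul_sum]
    push_cast
    ring)
  have hr : (∑ j, ((((ρ p ^ (k + 1) * B p : ℝ)) : ℂ) *
      ∑ l, zt ρ p τ β j * star (zt ρ p τ β j) * (η l * star (η l)))) +
      ((((ρ p ^ k * a2 p : ℝ)) : ℂ) * ∑ _l : Fin N, (0 : ℂ) +
        ∑ j, ((((ρ p ^ (k + 1) * a2 p : ℝ)) : ℂ) *
          ∑ l, zt ρ p τ β j * star (zt ρ p τ β j) * (η l * star (η l)))) = 0 := by
    simp [hp]
  have U'' : Lm ρ Z (fun M x => ((RG ρ s t A₁ A u M x : ℝ) : ℂ)) 0 := hr ▸ U'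
  have hfin := cmpG hZ T' U'' hlam hen (fun M x => RG_nonneg M x)
  rw [norm_zero, mul_zero] at hfin
  have h0 := norm_le_zero_iff.1 hfin
  rw [← h0, Finset.sum_mul, ← Finset.sum_add_distrib]
  refine Finset.sum_congr rfl fun i _ => ?_
  rw [Finset.sum_mul, ← Finset.sum_add_distrib]
  refine Finset.sum_congr rfl fun j _ => ?_
  have g1 : ∑ l, ∑ r, star (a j p l r) * (thB k β * zt ρ p τ β i * (η l * star (η r))) =
      thB k β * zt ρ p τ β i * gq η (a j p) := gq_sum η (a j p) _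
  have g2 : ∑ l, star (∑ r, star (a i p l r) * (thB k β * zt ρ p τ β j * (η l * star (η r)))) =
      star (thB k β * zt ρ p τ β j * gq η (a i p)) := by
    rw [← gq_sum η (a i p) (thB k β * zt ρ p τ β j), star_sum]
  have g3 : ∑ l, zt ρ p τ β i * star (zt ρ p τ β j) * (η l * star (η l)) =
      zt ρ p τ β i * star (zt ρ p τ β j) * (η ⬝ᵥ star η) := by
    simp only [dotProduct, Pi.star_apply, Finset.mul_sum]
  rw [g1, g2, g3]
  simp
  ring

/-- **The limit, order `0`.** -/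
lemma key0G (hρ : Dom ρ) (hZ : ∀ M, 0 < Z M) (hp : ρ p = 0) {ζ : Fin n → ℂ}
    (h : Con ρ Z p 0 ζ η u) (hs : SmM s) (hA₁ : SmU A₁) (hA : SmU A)
    {b : Fin n → Fin n → V n → ℝ} (hb : ∀ i j, ContDiff ℝ ∞ (b i j))
    (eb : ∀ i j x, t x i j - s x i j = b i j x) {C : ℝ} {lam : ℕ → V n → ℝ}
    (hlam : Tendsto (fun M => (Z M)⁻¹ * ∫ x in Om ρ, lam M x) atTop (𝓝 0))
    (hen : ∀ M, ‖∫ x in Om ρ, LG s t A₁ A u M x‖ ≤
      C * ((∫ x in Om ρ, RG ρ s t A₁ A u M x) + ∫ x in Om ρ, lam M x)) :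
    ‖(∑ i, ∑ j, ((b i j p : ℝ) : ℂ) * (ζ i * star (ζ j))) * (η ⬝ᵥ star η)‖ ≤
      C * ‖(((∑ i, ∑ j, b i j p ^ 2 : ℝ)) : ℂ) * (∑ j, ζ j * star (ζ j)) *
        (η ⬝ᵥ star η)‖ := by
  have hα : ∀ i, SmC fun x => A i x - A₁ i x := fun i => smC_sub (hA.1 i) (hA₁.1 i)
  have E1 : ∀ i j, BL ρ Z p (fun x => ρ x ^ 0) (fun M => cd A i (u M))
      (fun M => cd A j (u M)) (fun l l' => ζ i * star (ζ j) * (η l * star (η l'))) :=
    fun i j => cdL hρ (h.h1 i j) (h.h3 i) (h.h3 j) h.h4 (hA.1 i) (hA.1 j)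
  have E2 : ∀ j, BL ρ Z p (fun x => ρ x ^ 0) (fun M => cd A₁ j (u M))
      (fun M => cd A₁ j (u M)) (fun l l' => ζ j * star (ζ j) * (η l * star (η l'))) :=
    fun j => cdL hρ (h.h1 j j) (h.h3 j) (h.h3 j) h.h4 (hA₁.1 j) (hA₁.1 j)
  have X : ∀ i j, BL ρ Z p (fun x => ρ x ^ 0) (fun M => cd A₁ i (u M))
      (fun M x => (A j x - A₁ j x) *ᵥ u M x) (fun _ _ => 0) :=
    fun i j => (auR hρ (cdu hρ (h.h3 i) h.h4 (hA₁.1 i)) (hα j)).of_eq fun l l' => by simp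
  have Y : ∀ i j, BL ρ Z p (fun x => ρ x ^ 0) (fun M x => (A i x - A₁ i x) *ᵥ u M x)
      (fun M x => (A j x - A₁ j x) *ᵥ u M x) (fun _ _ => 0) := fun i j =>
    (auR hρ (h.h4.mul_l hρ (hα i)) (hα j)).of_eq fun l l' => by simp
  have T1 := fun i j => (E1 i j).dot hρ (ofReal_sm (hb i j))
  have T2 := fun i j => (X i j).dot hρ (ofReal_sm (hs i j))
  have T3 := fun i j => ((X j i).swap hρ).dot hρ (ofReal_sm (hs i j))
  have T4 := fun i j => (Y i j).dot hρ (ofReal_sm (hs i j))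
  have T := Lm.sum fun i => Lm.sum fun j => (T1 i j).add (((T2 i j).add (T3 i j)).add (T4 i j))
  have T' := T.congr hρ (g' := LG s t A₁ A u) (fun M x hx => by
    unfold LG
    refine Finset.sum_congr rfl fun i _ => Finset.sum_congr rfl fun j _ => ?_
    rw [eb i j x, pow_zero]
    push_cast
    ring)
  set B : V n → ℝ := fun x => ∑ i, ∑ j, b i j x ^ 2 with hB
  have hBs : ContDiff ℝ ∞ B := ContDiff.sum fun i _ => ContDiff.sum fun j _ => (hb i j).pow 2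
  set a2 : V n → ℝ := fun x => ∑ i, ∑ α, ∑ β, ‖A i x α β - A₁ i x α β‖ ^ 2 with ha2
  have ha2s : ContDiff ℝ ∞ a2 := ContDiff.sum fun i _ => ContDiff.sum fun α _ =>
    ContDiff.sum fun β _ => nsq_sm ((hA.1 i α β).sub (hA₁.1 i α β))
  have U1 := Lm.sum fun j => (E2 j).dot hρ (ofReal_sm hBs)
  have U2 := h.h4.dot hρ (ofReal_sm ha2s)
  have U3 := Lm.sum fun j => (E2 j).dot hρ (ofReal_sm (ha2s.mul (hρ.sm.pow 2)))
  have U := U1.add (U2.add U3)
  have U' := U.congr hρ (g' := fun M x => ((RG ρ s t A₁ A u M x : ℝ) : ℂ)) (fun M x hx => by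
    rw [RG_cast]
    have s1 : ∑ i, ∑ j, |t x i j - s x i j| ^ 2 = B x := by
      simp only [eb, hB, sq_abs]
    rw [s1]
    simp only [← Finset.mul_sum, ha2]
    push_cast
    ring)
  have hfin := cmpG hZ T' U' hlam hen (fun M x => RG_nonneg M x)
  refine le_of_eq_of_le ?_ (hfin.trans (le_of_eq ?_))
  · congr 1
    simp only [mul_zero, Finset.sum_const_zero, add_zero, star_zero, dotProduct, Pi.star_apply,
      Finset.sum_mul]
    refine Finset.sum_congr rfl fun i _ => Finset.sum_congr rfl fun j _ => ?_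
    rw [← Finset.mul_sum]
    ring
  · congr 2
    simp only [mul_zero, Finset.sum_const_zero, zero_add, hp, dotProduct, Pi.star_apply]
    have e1 : ∀ j, ((B p : ℝ) : ℂ) * ∑ l, ζ j * star (ζ j) * (η l * star (η l)) =
        ((B p : ℝ) : ℂ) * (ζ j * star (ζ j)) * ∑ l, η l * star (η l) := by
      intro j
      rw [← Finset.mul_sum]
      ring
    simp only [e1]
    rw [← Finset.sum_mul, ← Finset.mul_sum]
    simp [hB]

end key

end Vale.Agent.P088.PJ.Bd.H281
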