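import Vale.Agent.P088.R2.H281.JBd
import Vale.Agent.P088.R2.H281.BBd

/-!
# P088, two pairs on a smooth domain, general base tensor: the boundary step (row JB-BD)
-/

open MeasureTheory Set Filter
open scoped ContDiff Matrix Topology

noncomputable section

namespace Vale.Agent.P088.PJ.Bd.H281

open Vale.Agent.P088.LR Vale.Agent.P088.LR.B Vale.Agent.P088.LR.B.H43 Vale.Agent.P088.LR.U
  Vale.Agent.P088.LR.H158
open Vale.Agent.P088.H607.K (Lm BL Con ofReal_sm gq gq_sum gq_anti gq_lin herm_zero kap_pos)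
open Vale.Agent.P088.PJ.Bd (zt DatG)

variable {n N : ℕ} {ρ : V n → ℝ} {Z : ℕ → ℝ} {p : V n}

/-! ### algebra -/

/-- the quadratic form of a positive definite matrix -/
lemma pd_pos {s : Matrix (Fin n) (Fin n) ℝ} (h : s.PosDef) {v : Fin n → ℝ} (hv : v ≠ 0) :
    0 < ∑ i, ∑ j, s i j * (v i * v j) := by
  have h1 := h.dotProduct_mulVec_pos hv
  simp only [dotProduct, Matrix.mulVec, Pi.star_apply, star_trivial, Finset.mul_sum] at h1
  refine h1.trans_eq ?_
  exact Finset.sum_congr rfl fun i _ => Finset.sum_congr rfl fun j _ => by ring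

/-- the bilinear form -/
def Sf (s : Matrix (Fin n) (Fin n) ℝ) (v w : Fin n → ℝ) : ℝ := ∑ i, ∑ j, s i j * (v i * w j)

lemma Sf_symm {s : Matrix (Fin n) (Fin n) ℝ} (hs : ∀ i j, s i j = s j i) (v w : Fin n → ℝ) :
    Sf s v w = Sf s w v := by
  unfold Sf
  rw [Finset.sum_comm]
  exact Finset.sum_congr rfl fun i _ => Finset.sum_congr rfl fun j _ => by rw [hs j i]; ring

lemma Sf_lin (s : Matrix (Fin n) (Fin n) ℝ) (u v w : Fin n → ℝ) (a c : ℝ) :
    Sf s u (fun i => a * v i + c * w i) = a * Sf s u v + c * Sf s u w := by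
  unfold Sf
  simp only [Finset.mul_sum, ← Finset.sum_add_distrib]
  exact Finset.sum_congr rfl fun i _ => Finset.sum_congr rfl fun j _ => by ring

/-- the tangent covector `τ + (Im β) ∇ρ` -/
def tp (ρ : V n → ℝ) (p τ : V n) (β : ℂ) (i : Fin n) : ℝ := τ i + β.im * pd i ρ p

/-- the gradient of `ρ` at `p` -/
def gd (ρ : V n → ℝ) (p : V n) (i : Fin n) : ℝ := pd i ρ p

lemma zt_eq (τ : V n) (β : ℂ) (i : Fin n) :
    zt ρ p τ β i = ((β.re * gd ρ p i : ℝ) : ℂ) + Complex.I * ((tp ρ p τ β i : ℝ) : ℂ) := by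
  unfold zt tp gd
  conv_lhs => rw [← Complex.re_add_im β]
  push_cast
  ring

/-- consequences of `s(ζ, ζ) = 0` -/
lemma zt_null {s : Matrix (Fin n) (Fin n) ℝ} (hs : ∀ i j, s i j = s j i) {τ : V n} {β : ℂ}
    (hβ : β.re ≠ 0)
    (h : ∑ i, ∑ j, (s i j : ℂ) * (zt ρ p τ β i * zt ρ p τ β j) = 0) :
    Sf s (gd ρ p) (tp ρ p τ β) = 0 ∧
      β.re ^ 2 * Sf s (gd ρ p) (gd ρ p) = Sf s (tp ρ p τ β) (tp ρ p τ β) := by
  have h1 : ∑ i, ∑ j, (s i j : ℂ) * (zt ρ p τ β i * zt ρ p τ β j) =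
      ((β.re ^ 2 * Sf s (gd ρ p) (gd ρ p) - Sf s (tp ρ p τ β) (tp ρ p τ β) : ℝ) : ℂ) +
        Complex.I * ((β.re * (Sf s (gd ρ p) (tp ρ p τ β) + Sf s (tp ρ p τ β) (gd ρ p)) : ℝ) : ℂ) := by
    unfold Sf
    push_cast
    simp only [Finset.mul_sum, mul_add, ← Finset.sum_add_distrib, ← Finset.sum_sub_distrib]
    refine Finset.sum_congr rfl fun i _ => Finset.sum_congr rfl fun j _ => ?_
    rw [zt_eq, zt_eq]
    push_cast
    linear_combination ((s i j : ℂ) * (tp ρ p τ β i : ℂ) * (tp ρ p τ β j : ℂ)) * Complex.I_sq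
  rw [h1] at h
  have hre := congrArg Complex.re h
  have him := congrArg Complex.im h
  simp only [Complex.add_re, Complex.ofReal_re, Complex.mul_re, Complex.I_re, Complex.I_im,
    Complex.ofReal_im, Complex.zero_re, Complex.add_im, Complex.mul_im, Complex.zero_im] at hre him
  rw [Sf_symm hs (tp ρ p τ β)] at him
  constructor
  · have : β.re * (2 * Sf s (gd ρ p) (tp ρ p τ β)) = 0 := by linarith
    have := (mul_eq_zero.1 this).resolve_left hβ
    linarith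
  · linarith

/-- the value of `|β|²` -/
lemma beta_sq {s : Matrix (Fin n) (Fin n) ℝ} (hs : ∀ i j, s i j = s j i) {τ : V n} {β : ℂ}
    (h1 : Sf s (gd ρ p) (tp ρ p τ β) = 0)
    (h2 : β.re ^ 2 * Sf s (gd ρ p) (gd ρ p) = Sf s (tp ρ p τ β) (tp ρ p τ β)) :
    ‖β‖ ^ 2 * Sf s (gd ρ p) (gd ρ p) = Sf s τ τ := by
  have e : tp ρ p τ β = fun i => 1 * τ i + β.im * gd ρ p i := by
    funext i
    unfold tp gd
    ring
  have a1 : Sf s (gd ρ p) (tp ρ p τ β) = Sf s (gd ρ p) τ + β.im * Sf s (gd ρ p) (gd ρ p) := by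
    rw [e, Sf_lin, one_mul]
  have a2 : Sf s (tp ρ p τ β) (tp ρ p τ β) =
      Sf s (tp ρ p τ β) τ + β.im * Sf s (tp ρ p τ β) (gd ρ p) := by
    conv_lhs => rw [e, Sf_lin, one_mul, ← e]
  have a3 : Sf s (tp ρ p τ β) (gd ρ p) = 0 := by rw [Sf_symm hs, h1]
  have a4 : Sf s (tp ρ p τ β) τ = Sf s τ τ + β.im * Sf s τ (gd ρ p) := by
    rw [Sf_symm hs, e, Sf_lin, one_mul]
  have a5 : Sf s τ (gd ρ p) = Sf s (gd ρ p) τ := Sf_symm hs _ _
  have a6 : ‖β‖ ^ 2 = β.re ^ 2 + β.im ^ 2 := by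
    rw [Complex.sq_norm, Complex.normSq_apply]
    ring
  rw [a1] at h1
  rw [a2, a3, a4, a5] at h2
  rw [a6]
  linear_combination h2 + β.im * h1

/-- `τ ↦ - τ` -/
lemma beta_neg {s : Matrix (Fin n) (Fin n) ℝ} (hs : ∀ i j, s i j = s j i)
    (hg : 0 < Sf s (gd ρ p) (gd ρ p)) {τ : V n} {β β' : ℂ} (hβ : β.re < 0) (hβ' : β'.re < 0)
    (h1 : Sf s (gd ρ p) (tp ρ p τ β) = 0)
    (h2 : β.re ^ 2 * Sf s (gd ρ p) (gd ρ p) = Sf s (tp ρ p τ β) (tp ρ p τ β))
    (h1' : Sf s (gd ρ p) (tp ρ p (fun i => -τ i) β') = 0)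
    (h2' : β'.re ^ 2 * Sf s (gd ρ p) (gd ρ p) =
      Sf s (tp ρ p (fun i => -τ i) β') (tp ρ p (fun i => -τ i) β')) :
    β'.im = -β.im ∧ β'.re = β.re := by
  have e : tp ρ p τ β = fun i => 1 * τ i + β.im * gd ρ p i := by
    funext i
    unfold tp gd
    ring
  have e' : tp ρ p (fun i => -τ i) β' = fun i => (-1) * τ i + β'.im * gd ρ p i := by
    funext i
    unfold tp gd
    ring
  have a1 : Sf s (gd ρ p) τ + β.im * Sf s (gd ρ p) (gd ρ p) = 0 := by
    rw [← h1, e, Sf_lin, one_mul]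
  have a1' : -1 * Sf s (gd ρ p) τ + β'.im * Sf s (gd ρ p) (gd ρ p) = 0 := by
    rw [← h1', e', Sf_lin]
  have a2 : (β'.im + β.im) * Sf s (gd ρ p) (gd ρ p) = 0 := by linear_combination a1 + a1'
  have a3 : β'.im = -β.im := by
    have := (mul_eq_zero.1 a2).resolve_right hg.ne'
    linarith
  refine ⟨a3, ?_⟩
  have a4 : tp ρ p (fun i => -τ i) β' = fun i => (-1) * tp ρ p τ β i + 0 * τ i := by
    funext i
    unfold tp
    rw [a3]
    ring
  have a5 : Sf s (tp ρ p (fun i => -τ i) β') (tp ρ p (fun i => -τ i) β') =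
      Sf s (tp ρ p τ β) (tp ρ p τ β) := by
    conv_lhs => rw [a4, Sf_lin, Sf_symm hs, Sf_lin, zero_mul, zero_mul]
    ring
  have a6 : (β'.re ^ 2 - β.re ^ 2) * Sf s (gd ρ p) (gd ρ p) = 0 := by
    rw [sub_mul, h2', h2, a5, sub_self]
  have a7 : β'.re ^ 2 - β.re ^ 2 = 0 := (mul_eq_zero.1 a6).resolve_right hg.ne'
  have a8 : (β'.re - β.re) * (β'.re + β.re) = 0 := by linear_combination a7
  rcases mul_eq_zero.1 a8 with h | h
  · linarith
  · linarith

/-- the tangent vector `s (τ + (Im β) ∇ρ)` -/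
def Tv (s : Matrix (Fin n) (Fin n) ℝ) (ρ : V n → ℝ) (p τ : V n) (β : ℂ) (j : Fin n) : ℝ :=
  ∑ i, s i j * tp ρ p τ β i

/-- the identity of order `k + 1`, in the form `q E + 2 i θ G = 0` -/
lemma lin_eqG {k : ℕ} {s : Matrix (Fin n) (Fin n) ℝ} (hs : ∀ i j, s i j = s j i) {q E : ℂ}
    {η : Fin N → ℂ} {τ : V n} {β : ℂ} {a : Fin n → Matrix (Fin N) (Fin N) ℂ}
    (hanti : ∀ i, ∀ α β, star (a i β α) = -a i α β)
    (h : q * E + ∑ i, ∑ j, ((s i j : ℝ) : ℂ) * (thB k β * zt ρ p τ β i * gq η (a j) +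
      star (thB k β * zt ρ p τ β j * gq η (a i))) = 0) :
    q * E + thB k β * (2 * Complex.I) *
      ∑ j, ((Tv s ρ p τ β j : ℝ) : ℂ) * gq η (a j) = 0 := by
  have h1 : ∑ i, ∑ j, ((s i j : ℝ) : ℂ) * (thB k β * zt ρ p τ β i * gq η (a j) +
      star (thB k β * zt ρ p τ β j * gq η (a i))) =
      thB k β * (2 * Complex.I) * ∑ j, ((Tv s ρ p τ β j : ℝ) : ℂ) * gq η (a j) := by
    have e1 : ∀ i j, ((s i j : ℝ) : ℂ) * (thB k β * zt ρ p τ β i * gq η (a j) +
        star (thB k β * zt ρ p τ β j * gq η (a i))) =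
        ((s i j : ℝ) : ℂ) * (thB k β * zt ρ p τ β i * gq η (a j)) -
          ((s i j : ℝ) : ℂ) * (thB k β * star (zt ρ p τ β j) * gq η (a i)) := by
      intro i j
      rw [star_mul', star_mul', thB_real, gq_anti (hanti i)]
      ring
    simp only [e1, Finset.sum_sub_distrib]
    have e2 : ∑ i, ∑ j, ((s i j : ℝ) : ℂ) * (thB k β * star (zt ρ p τ β j) * gq η (a i)) =
        ∑ i, ∑ j, ((s i j : ℝ) : ℂ) * (thB k β * star (zt ρ p τ β i) * gq η (a j)) := by
      rw [Finset.sum_comm]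
      exact Finset.sum_congr rfl fun i _ => Finset.sum_congr rfl fun j _ => by rw [hs j i]
    rw [e2, ← Finset.sum_sub_distrib, Finset.mul_sum]
    simp only [← Finset.sum_sub_distrib]
    rw [Finset.sum_comm]
    refine Finset.sum_congr rfl fun j _ => ?_
    unfold Tv
    push_cast
    rw [Finset.sum_mul, Finset.mul_sum]
    refine Finset.sum_congr rfl fun i _ => ?_
    have e3 := zt_sub (ρ := ρ) (p := p) τ β i
    change zt ρ p τ β i - star (zt ρ p τ β i) = 2 * Complex.I * ((tp ρ p τ β i : ℝ) : ℂ) at e3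
    linear_combination (((s i j : ℝ) : ℂ) * thB k β * gq η (a j)) * e3
  rw [h1] at h
  exact h

/-- a covector orthogonal to the gradient and to all the vectors `T` vanishes -/
lemma vec_zero {s : Matrix (Fin n) (Fin n) ℝ} (hpd : s.PosDef)
    (hg : 0 < ∑ i, gd ρ p i ^ 2) {w : Fin n → ℝ} (h0 : ∑ i, gd ρ p i * w i = 0)
    (h : ∀ τ : V n, ∑ i, τ i ^ 2 = 1 → ∑ i, τ i * pd i ρ p = 0 → ∃ β : ℂ,
      Sf s (gd ρ p) (tp ρ p τ β) = 0 ∧ ∑ j, Tv s ρ p τ β j * w j = 0) : ∀ i, w i = 0 := by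
  have hs : ∀ i j, s i j = s j i := fun i j => by
    have := hpd.1.apply j i
    simpa using this
  by_contra hcon
  push Not at hcon
  obtain ⟨i₀, hi₀⟩ := hcon
  set S : ℝ := ∑ i, w i ^ 2 with hS
  have hSp : 0 < S := by
    refine Finset.sum_pos' (fun i _ => sq_nonneg _) ⟨i₀, Finset.mem_univ _, ?_⟩
    positivity
  have hr : 0 < √S := Real.sqrt_pos.2 hSp
  set τ : V n := fun i => w i / √S with hτ
  have hτ1 : ∑ i, τ i ^ 2 = 1 := by
    have : ∑ i, τ i ^ 2 = S / √S ^ 2 := by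
      rw [hS, Finset.sum_div]
      exact Finset.sum_congr rfl fun i _ => by simp only [hτ]; rw [div_pow]
    rw [this, Real.sq_sqrt hSp.le, div_self hSp.ne']
  have hτg : ∑ i, τ i * pd i ρ p = 0 := by
    have : ∑ i, τ i * pd i ρ p = (∑ i, gd ρ p i * w i) / √S := by
      rw [Finset.sum_div]
      exact Finset.sum_congr rfl fun i _ => by simp only [hτ, gd]; ring
    rw [this, h0, zero_div]
  obtain ⟨β, h1, h2⟩ := h τ hτ1 hτg
  have e : tp ρ p τ β = fun i => 1 * τ i + β.im * gd ρ p i := by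
    funext i
    unfold tp gd
    ring
  have a1 : Sf s (tp ρ p τ β) τ = 0 := by
    have : Sf s (tp ρ p τ β) τ = (∑ j, Tv s ρ p τ β j * w j) / √S := by
      unfold Sf Tv
      rw [Finset.sum_comm, Finset.sum_div]
      refine Finset.sum_congr rfl fun j _ => ?_
      rw [Finset.sum_mul, Finset.sum_div]
      exact Finset.sum_congr rfl fun i _ => by simp only [hτ]; ring
    rw [this, h2, zero_div]
  have a2 : Sf s (tp ρ p τ β) (tp ρ p τ β) = 0 := by
    conv_lhs => rw [e, Sf_lin, one_mul, ← e]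
    rw [a1, Sf_symm hs, h1]
    ring
  have a3 : tp ρ p τ β = 0 := by
    by_contra hne
    exact (pd_pos hpd hne).ne' a2
  have a4 : β.im = 0 := by
    have b1 : ∑ i, gd ρ p i * tp ρ p τ β i = 0 := by
      rw [a3]
      simp
    have b2 : ∑ i, gd ρ p i * tp ρ p τ β i =
        ∑ i, τ i * pd i ρ p + β.im * ∑ i, gd ρ p i ^ 2 := by
      rw [Finset.mul_sum, ← Finset.sum_add_distrib]
      exact Finset.sum_congr rfl fun i _ => by simp only [tp, gd]; ring
    rw [b2, hτg, zero_add] at b1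
    exact (mul_eq_zero.1 b1).resolve_right hg.ne'
  have a5 : ∀ i, τ i = 0 := fun i => by
    have := congrFun a3 i
    simpa [tp, a4] using this
  simp [a5] at hτ1

/-- conclusion for the connection -/
lemma alg_aG {s : Matrix (Fin n) (Fin n) ℝ} (hpd : s.PosDef)
    (hg : 0 < ∑ i, gd ρ p i ^ 2) {a : Fin n → Matrix (Fin N) (Fin N) ℂ}
    (h0 : ∑ i, ((pd i ρ p : ℝ) : ℂ) • a i = 0)
    (h : ∀ τ : V n, ∑ i, τ i ^ 2 = 1 → ∑ i, τ i * pd i ρ p = 0 → ∃ β : ℂ,
      Sf s (gd ρ p) (tp ρ p τ β) = 0 ∧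
      ∀ η : Fin N → ℂ, ∑ j, ((Tv s ρ p τ β j : ℝ) : ℂ) * gq η (a j) = 0) : ∀ i, a i = 0 := by
  have h' : ∀ τ : V n, ∑ i, τ i ^ 2 = 1 → ∑ i, τ i * pd i ρ p = 0 → ∃ β : ℂ,
      Sf s (gd ρ p) (tp ρ p τ β) = 0 ∧ ∑ j, ((Tv s ρ p τ β j : ℝ) : ℂ) • a j = 0 := by
    intro τ h1 h2
    obtain ⟨β, h3, h4⟩ := h τ h1 h2
    exact ⟨β, h3, herm_zero fun η => by rw [gq_lin]; exact h4 η⟩
  have hre : ∀ α γ, ∀ i, (a i α γ).re = 0 := by
    intro α γ
    refine vec_zero hpd hg ?_ fun τ h1 h2 => ?_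
    · have e := congrArg Complex.re (congrFun (congrFun h0 α) γ)
      simp only [Matrix.sum_apply, Matrix.smul_apply, smul_eq_mul, Complex.re_sum,
        Complex.re_ofReal_mul, Matrix.zero_apply, Complex.zero_re] at e
      exact e
    · obtain ⟨β, h3, h4⟩ := h' τ h1 h2
      refine ⟨β, h3, ?_⟩
      have e := congrArg Complex.re (congrFun (congrFun h4 α) γ)
      simp only [Matrix.sum_apply, Matrix.smul_apply, smul_eq_mul, Complex.re_sum,
        Complex.re_ofReal_mul, Matrix.zero_apply, Complex.zero_re] at e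
      exact e
  have him : ∀ α γ, ∀ i, (a i α γ).im = 0 := by
    intro α γ
    refine vec_zero hpd hg ?_ fun τ h1 h2 => ?_
    · have e := congrArg Complex.im (congrFun (congrFun h0 α) γ)
      simp only [Matrix.sum_apply, Matrix.smul_apply, smul_eq_mul, Complex.im_sum,
        Complex.im_ofReal_mul, Matrix.zero_apply, Complex.zero_im] at e
      exact e
    · obtain ⟨β, h3, h4⟩ := h' τ h1 h2
      refine ⟨β, h3, ?_⟩
      have e := congrArg Complex.im (congrFun (congrFun h4 α) γ)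
      simp only [Matrix.sum_apply, Matrix.smul_apply, smul_eq_mul, Complex.im_sum,
        Complex.im_ofReal_mul, Matrix.zero_apply, Complex.zero_im] at e
      exact e
  intro i
  ext α γ
  exact Complex.ext (hre α γ i) (him α γ i)

end Vale.Agent.P088.PJ.Bd.H281
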