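import Vale.Agent.P088.R2.H281.JBdF

/-!
# P088, two pairs on a smooth domain, general base tensor: the boundary step (row JB-BD)
-/

open MeasureTheory Set Filter
open scoped ContDiff Matrix Topology

noncomputable section

namespace Vale.Agent.P088.PJ.Bd.H281

open Vale.Agent.P088.LR Vale.Agent.P088.LR.B Vale.Agent.P088.LR.B.H43 Vale.Agent.P088.LR.U
  Vale.Agent.P088.LR.H158
open Vale.Agent.P088.LR.K (Sma)
open Vale.Agent.P088.H607.K (Lm BL Con ofReal_sm gq gq_sum gq_anti gq_lin herm_zero kap_pos)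
open Vale.Agent.P088.PJ.Bd (zt DatG)

variable {n N : ℕ} {ρ : V n → ℝ} {p : V n}

/-- the quadratic form of a matrix near the identity -/
lemma Sf_near {s : Matrix (Fin n) (Fin n) ℝ} {ε : ℝ} (hε : ∀ i j, |s i j - dl i j| ≤ ε)
    (v : Fin n → ℝ) : |Sf s v v - ∑ i, v i ^ 2| ≤ ε * n * ∑ i, v i ^ 2 := by
  have e1 : Sf s v v - ∑ i, v i ^ 2 = ∑ i, ∑ j, (s i j - dl i j) * (v i * v j) := by
    unfold Sf
    have : ∑ i, v i ^ 2 = ∑ i, ∑ j, dl i j * (v i * v j) := by
      refine Finset.sum_congr rfl fun i _ => ?_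
      rw [Finset.sum_eq_single i]
      · simp [dl, pow_two]
      · intro j _ hj
        simp [dl, Ne.symm hj]
      · intro h
        exact absurd (Finset.mem_univ i) h
    rw [this, ← Finset.sum_sub_distrib]
    refine Finset.sum_congr rfl fun i _ => ?_
    rw [← Finset.sum_sub_distrib]
    exact Finset.sum_congr rfl fun j _ => by ring
  rw [e1]
  by_cases hn : Nonempty (Fin n)
  · obtain ⟨i₀⟩ := hn
    have hε0 : 0 ≤ ε := (abs_nonneg _).trans (hε i₀ i₀)
    calc |∑ i, ∑ j, (s i j - dl i j) * (v i * v j)|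
        ≤ ∑ i, |∑ j, (s i j - dl i j) * (v i * v j)| := Finset.abs_sum_le_sum_abs _ _
      _ ≤ ∑ i, ∑ j, |(s i j - dl i j) * (v i * v j)| :=
          Finset.sum_le_sum fun i _ => Finset.abs_sum_le_sum_abs _ _
      _ ≤ ∑ i, ∑ j, ε * ((v i ^ 2 + v j ^ 2) / 2) := by
          refine Finset.sum_le_sum fun i _ => Finset.sum_le_sum fun j _ => ?_
          rw [abs_mul]
          refine mul_le_mul (hε i j) ?_ (abs_nonneg _) hε0
          rw [abs_mul, ← sq_abs (v i), ← sq_abs (v j)]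
          nlinarith [sq_nonneg (|v i| - |v j|)]
      _ = ε * n * ∑ i, v i ^ 2 := by
          simp only [← Finset.mul_sum, ← Finset.sum_div, Finset.sum_add_distrib,
            Finset.sum_const, Finset.card_univ, Fintype.card_fin, nsmul_eq_mul]
          ring
  · rw [not_nonempty_iff] at hn
    simp

lemma Tv_neg {s : Matrix (Fin n) (Fin n) ℝ} {τ : V n} {β β' : ℂ} (h : β'.im = -β.im)
    (j : Fin n) : Tv s ρ p (fun i => -τ i) β' j = -Tv s ρ p τ β j := by
  unfold Tv tp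
  rw [← Finset.sum_neg_distrib, h]
  exact Finset.sum_congr rfl fun i _ => by ring

/-- **Row JB-BD.** -/
theorem rowBD (hQU : PJ.Bd.RowQU) (hEN : PJ.Bd.RowEN) : PJ.Bd.RowBD := by
  intro n N ρ hn hN hρ
  obtain ⟨a₀, C, ha₀, hC, HE⟩ := hEN N ρ hn hρ
  have hn0 : (0 : ℝ) < n := by
    have : 0 < n := by omega
    exact_mod_cast this
  set ε : ℝ := min (min (1 / (2 * n)) a₀) (1 / (40 * n ^ 2 * C)) with hε
  have hεp : 0 < ε := lt_min (lt_min (by positivity) ha₀) (by positivity)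
  have hεn : ε ≤ 1 / (2 * n) := (min_le_left _ _).trans (min_le_left _ _)
  have hεa : ε ≤ a₀ := (min_le_left _ _).trans (min_le_right _ _)
  have hεC : ε ≤ 1 / (40 * n ^ 2 * C) := min_le_right _ _
  refine ⟨0, ε, hεp, ?_⟩
  intro s t A₁ A hs ht hspd hsym hA₁ hA hSma hDat m b a hb ha hbs eb ea hbν haν
  obtain ⟨cs, ct, cA₁, cA⟩ := hSma
  have val : ∀ {f : V n → ℝ}, Cl 0 ε f → ∀ x, |f x| ≤ ε := fun hf x => by
    have := hf 0 (Nat.zero_le _) x
    rwa [norm_iteratedFDeriv_zero, Real.norm_eq_abs] at this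
  have valC : ∀ {f : V n → ℂ}, Cl 0 ε f → ∀ x, ‖f x‖ ≤ ε := fun hf x => by
    have := hf 0 (Nat.zero_le _) x
    rwa [norm_iteratedFDeriv_zero] at this
  have hss : ∀ x i j, s x i j = s x j i := fun x i j => by
    have := (hspd x).1.apply j i
    simpa using this
  have hE := HE s t A₁ A hs ht (fun x => by
      ext i j
      exact hss x j i) hsym hA₁ hA
    (fun x _ i j => (val (cs i j) x).trans hεa)
    (fun x _ i j => (val (ct i j) x).trans hεa)
    (fun x _ i α β => (valC (cA₁ i α β) x).trans hεa)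
    (fun x _ i α β => (valC (cA i α β) x).trans hεa) hDat
  -- the gradient
  have hgp : ∀ {p : V n}, ρ p = 0 → 0 < ∑ i, gd ρ p i ^ 2 := by
    intro p hp
    have := kap_pos hρ p
    rw [hp] at this
    simpa [gd] using this
  have hnear : ∀ (p : V n) (v : Fin n → ℝ),
      |Sf (s p) v v - ∑ i, v i ^ 2| ≤ 1 / 2 * ∑ i, v i ^ 2 := by
    intro p v
    refine (Sf_near (fun i j => val (cs i j) p) v).trans ?_
    have h0 : 0 ≤ ∑ i, v i ^ 2 := Finset.sum_nonneg fun i _ => sq_nonneg _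
    refine mul_le_mul_of_nonneg_right ?_ h0
    calc ε * n ≤ 1 / (2 * n) * n := mul_le_mul_of_nonneg_right hεn hn0.le
      _ = 1 / 2 := by field_simp
  have hgs : ∀ {p : V n}, ρ p = 0 → 0 < Sf (s p) (gd ρ p) (gd ρ p) := by
    intro p hp
    have h1 := hgp hp
    have h2 := abs_le.1 (hnear p (gd ρ p))
    linarith
  -- the quasimodes
  have HQ : ∀ {p : V n}, ρ p = 0 → ∀ τ : V n, ∑ i, τ i ^ 2 = 1 → ∑ i, τ i * pd i ρ p = 0 →
      ∃ β : ℂ, β.re < 0 ∧ Sf (s p) (gd ρ p) (tp ρ p τ β) = 0 ∧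
      β.re ^ 2 * Sf (s p) (gd ρ p) (gd ρ p) = Sf (s p) (tp ρ p τ β) (tp ρ p τ β) ∧
      ∀ (η : Fin N → ℂ) (m : ℕ), ∃ (u : ℕ → V n → Fin N → ℂ) (Z : ℕ → ℝ) (lam : ℕ → V n → ℝ),
        (∀ M, 0 < Z M) ∧ Con ρ Z p m (zt ρ p τ β) η u ∧
        Tendsto (fun M => (Z M)⁻¹ * ∫ x in Om ρ, lam M x) atTop (𝓝 0) ∧
        ∀ M, ‖∫ x in Om ρ, LG s t A₁ A u M x‖ ≤
          C * ((∫ x in Om ρ, RG ρ s t A₁ A u M x) + ∫ x in Om ρ, lam M x) := by
    intro p hp τ hτ1 hτg
    obtain ⟨β, hβ, hnull, HU⟩ := hQU N ρ hρ s A₁ hs hspd hA₁ p hp τ hτ1 hτg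
    obtain ⟨z1, z2⟩ := zt_null (hss p) hβ.ne hnull
    refine ⟨β, hβ, z1, z2, fun η m => ?_⟩
    obtain ⟨u, Z, hu, hZ, hlam, hlim⟩ := HU η m
    have hcu : ∀ M l, Continuous fun x => u M x l := fun M l =>
      ((contDiff_pi.1 (hu M)) l).continuous
    have hcd : ∀ M i l, Continuous fun x => pd i (u M) x l := fun M i l =>
      ((contDiff_pi.1 (H158.contDiff_pd (hu M) i)) l).continuous
    have hcdd : ∀ M i j l, Continuous fun x => pd i (pd j (u M)) x l := fun M i j l =>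
      ((contDiff_pi.1 (H158.contDiff_pd (H158.contDiff_pd (hu M) j) i)) l).continuous
    have hw : Continuous fun x => ((ρ x ^ m : ℝ) : ℂ) :=
      (ofReal_sm (hρ.sm.pow m)).continuous
    have hst : ∀ {f : V n → ℂ}, Continuous f → Continuous fun x => star (f x) := fun hf =>
      Complex.continuous_conj.comp hf
    refine ⟨u, Z, fun M x => ∑ l, ‖lav s A₁ (u M) x l‖ ^ 2, hZ,
      ⟨hu, fun i j F hF l l' => ⟨fun M => om_int hρ
      ((hw.mul hF.continuous).mul ((hcd M i l).mul (hst (hcd M j l')))), ?_⟩,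
      fun i j F hF l l' => ⟨fun M => om_int hρ
      ((hw.mul hF.continuous).mul ((hcdd M i j l).mul (hst (hcu M l')))), ?_⟩,
      fun i F hF l l' => ⟨fun M => om_int hρ
      ((hw.mul hF.continuous).mul ((hcd M i l).mul (hst (hcu M l')))), ?_⟩,
      fun F hF l l' => ⟨fun M => om_int hρ
      ((hw.mul hF.continuous).mul ((hcu M l).mul (hst (hcu M l')))), ?_⟩⟩, hlam, fun M => ?_⟩
    · have h1 := (hlim F hF.continuous.continuousOn l l').1 i j
      rwa [mul_assoc] at h1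
    · have h1 := (hlim F hF.continuous.continuousOn l l').2.1 i j
      rwa [mul_assoc] at h1
    · rw [mul_zero]
      exact (hlim F hF.continuous.continuousOn l l').2.2.1 i
    · rw [mul_zero]
      exact (hlim F hF.continuous.continuousOn l l').2.2.2
    · rw [← ea_diffG hρ hs ht hA₁ hA hu M]
      exact hE (u M) (hu M)
  -- the unit normal
  have HN : ∀ {p : V n}, ρ p = 0 → ∃ (c : ℝ) (ν : V n), 0 < c ∧ ∑ i, ν i ^ 2 = 1 ∧
      ∀ i, pd i ρ p = c * ν i := by
    intro p hp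
    set S0 : ℝ := ∑ i, gd ρ p i ^ 2 with hS0
    have hS0p : 0 < S0 := hgp hp
    have hc0 : 0 < √S0 := Real.sqrt_pos.2 hS0p
    refine ⟨√S0, fun i => gd ρ p i / √S0, hc0, ?_, fun i => ?_⟩
    · have h : ∑ i, (gd ρ p i / √S0) ^ 2 = S0 / √S0 ^ 2 := by
        rw [hS0, Finset.sum_div]
        exact Finset.sum_congr rfl fun i _ => by rw [div_pow]
      rw [h, Real.sq_sqrt hS0p.le, div_self hS0p.ne']
    · simp only [gd]
      field_simp
  -- the quadratic form of `b`
  have hquad : ∀ {p : V n}, ρ p = 0 → ∀ (τ : V n) (β : ℂ),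
      ∑ i, ∑ j, ((b i j p : ℝ) : ℂ) * (zt ρ p τ β i * star (zt ρ p τ β j)) =
      ((∑ i, ∑ j, b i j p * (τ i * τ j) : ℝ) : ℂ) := fun {p} hp τ β =>
    HY.Bd.contrB (fun i j => hbs i j p) (hbν p hp) β
  -- order `k + 1`
  have stepS : ∀ k, m = k + 1 → ∀ {p : V n}, ρ p = 0 → ∀ τ : V n, ∑ i, τ i ^ 2 = 1 →
      ∑ i, τ i * pd i ρ p = 0 → ∃ β : ℂ, Sf (s p) (gd ρ p) (tp ρ p τ β) = 0 ∧
      ∀ η : Fin N → ℂ,
      ((∑ i, ∑ j, b i j p * (τ i * τ j) : ℝ) : ℂ) * (η ⬝ᵥ star η) = 0 ∧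
        ∑ j, ((Tv (s p) ρ p τ β j : ℝ) : ℂ) * gq η (a j p) = 0 := by
    intro k hk p hp τ hτ1 hτg
    subst hk
    obtain ⟨c, ν, hc, hν1, hcν⟩ := HN hp
    have hanti : ∀ i, ∀ α β, star (a i p β α) = -a i p α β := by
      intro i α β
      have hcl : IsClosed {x : V n | star (a i x β α) = -a i x α β} :=
        isClosed_eq (Complex.continuous_conj.comp (ha i β α).continuous)
          (ha i α β).continuous.neg
      refine closure_minimal ?_ hcl (mem_closure hρ hp)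
      intro x hx
      have hx0 : 0 < ρ x := hx
      have hx' : ((ρ x : ℝ) : ℂ) ≠ 0 := by exact_mod_cast hx0.ne'
      have hxk : ((ρ x ^ (k + 1) : ℝ) : ℂ) ≠ 0 := by exact_mod_cast (pow_pos hx0 _).ne'
      have e : ∀ α β, ((ρ x : ℝ) : ℂ) * (A i x α β - A₁ i x α β) =
          ((ρ x ^ (k + 1) : ℝ) : ℂ) * a i x α β := by
        intro α β
        have := congrFun (congrFun (ea i x) α) β
        simpa using this
      have r1 : star ((ρ x : ℝ) : ℂ) = ((ρ x : ℝ) : ℂ) := Complex.conj_ofReal _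
      have r2 : star ((ρ x ^ (k + 1) : ℝ) : ℂ) = ((ρ x ^ (k + 1) : ℝ) : ℂ) :=
        Complex.conj_ofReal _
      have u1 : star (A i x β α) = -A i x α β := by
        have := congrFun (congrFun (hA.2 i x) α) β
        simpa using this
      have u2 : star (A₁ i x β α) = -A₁ i x α β := by
        have := congrFun (congrFun (hA₁.2 i x) α) β
        simpa using this
      have e1 := congrArg star (e β α)
      rw [star_mul', star_mul', star_sub, r1, r2, u1, u2] at e1
      have e2 : ((ρ x ^ (k + 1) : ℝ) : ℂ) * (star (a i x β α) + a i x α β) = 0 := by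
        linear_combination -e1 - e α β
      have e3 := (mul_eq_zero.1 e2).resolve_left hxk
      show star (a i x β α) = -a i x α β
      linear_combination e3
    obtain ⟨β, hβ, z1, z2, HU⟩ := HQ hp τ hτ1 hτg
    obtain ⟨β', hβ', z1', z2', HU'⟩ := HQ hp (fun i => -τ i) (by simpa using hτ1)
      (by simpa using hτg)
    obtain ⟨him, hre⟩ := beta_neg (hss p) (hgs hp) hβ hβ' z1 z2 z1' z2'
    refine ⟨β, z1, fun η => ?_⟩
    obtain ⟨u, Z, lam, hZ, hcon, hlam, hen⟩ := HU η (k + 1)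
    have h1 := keySG hρ hZ hc hν1 hp hcν hcon hs hA₁ hA hb ha eb ea hlam hen
    rw [hquad hp] at h1
    have m1 := lin_eqG (hss p) hanti h1
    obtain ⟨u', Z', lam', hZ', hcon', hlam', hen'⟩ := HU' η (k + 1)
    have h1' := keySG hρ hZ' hc hν1 hp hcν hcon' hs hA₁ hA hb ha eb ea hlam' hen'
    rw [hquad hp] at h1'
    have m2 := lin_eqG (hss p) hanti h1'
    have e1 : ∑ i, ∑ j, b i j p * (-τ i * -τ j) = ∑ i, ∑ j, b i j p * (τ i * τ j) :=
      Finset.sum_congr rfl fun i _ => Finset.sum_congr rfl fun j _ => by ring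
    have e2 : ∑ j, ((Tv (s p) ρ p (fun i => -τ i) β' j : ℝ) : ℂ) * gq η (a j p) =
        -∑ j, ((Tv (s p) ρ p τ β j : ℝ) : ℂ) * gq η (a j p) := by
      rw [← Finset.sum_neg_distrib]
      refine Finset.sum_congr rfl fun j _ => ?_
      rw [Tv_neg him]
      push_cast
      ring
    have e3 : thB k β' = thB k β := by
      unfold thB
      rw [hre]
    rw [e1, e2, e3] at m2
    have hth : thB k β * (2 * Complex.I) ≠ 0 := by
      have h2 : ((k : ℝ) + 1) ≠ 0 := by positivity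
      have h4 : thB k β ≠ 0 := by
        unfold thB
        have : (-(((k : ℝ) + 1)⁻¹ * (2 * β.re)) : ℝ) ≠ 0 :=
          neg_ne_zero.2 (mul_ne_zero (inv_ne_zero h2) (mul_ne_zero two_ne_zero hβ.ne))
        exact_mod_cast this
      exact mul_ne_zero h4 (mul_ne_zero two_ne_zero Complex.I_ne_zero)
    refine ⟨?_, ?_⟩
    · have : 2 * (((∑ i, ∑ j, b i j p * (τ i * τ j) : ℝ) : ℂ) * (η ⬝ᵥ star η)) = 0 := by
        linear_combination m1 + m2
      exact (mul_eq_zero.1 this).resolve_left two_ne_zero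
    · have : (thB k β * (2 * Complex.I)) *
          (2 * ∑ j, ((Tv (s p) ρ p τ β j : ℝ) : ℂ) * gq η (a j p)) = 0 := by
        linear_combination m1 - m2
      have h2 := (mul_eq_zero.1 this).resolve_left hth
      exact (mul_eq_zero.1 h2).resolve_left two_ne_zero
  have hE1 : ((fun _ => 1 : Fin N → ℂ) ⬝ᵥ star (fun _ => 1 : Fin N → ℂ)) = (N : ℂ) := by
    simp [dotProduct]
  have hN0 : (N : ℂ) ≠ 0 := by
    have : N ≠ 0 := by omega
    exact_mod_cast this
  have hN0' : (0 : ℝ) < N := by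
    have : 0 < N := by omega
    exact_mod_cast this
  -- `b = 0`
  have hb0 : ∀ x, ρ x = 0 → ∀ i j, b i j x = 0 := by
    refine HY.Bd.bd_coreB hρ (s := s) (t := t) (K := 10 * C) (a := 2 * ε)
      (by positivity) ?_ (fun x _ i j => ?_) ?_ hb hbs (fun x i j => eb i j x) hbν
    · have h1 : (n : ℝ) * (n * (10 * C * (2 * ε))) = 20 * n ^ 2 * C * ε := by ring
      have h2 : 20 * n ^ 2 * C * ε ≤ 20 * n ^ 2 * C * (1 / (40 * n ^ 2 * C)) :=
        mul_le_mul_of_nonneg_left hεC (by positivity)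
      have h3 : 20 * (n : ℝ) ^ 2 * C * (1 / (40 * n ^ 2 * C)) = 1 / 2 := by
        field_simp
        norm_num
      rw [h1]
      linarith
    · have h1 := val (ct i j) x
      have h2 := val (cs i j) x
      have h3 : t x i j - s x i j = (t x i j - dl i j) - (s x i j - dl i j) := by ring
      rw [h3]
      exact (abs_sub _ _).trans (by linarith)
    · intro p hp τ hτ1 hτg hβ0
      rcases Nat.eq_zero_or_eq_succ_pred m with hm | hm
      · subst hm
        obtain ⟨β, hβ, z1, z2, HU⟩ := HQ hp τ hτ1 hτg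
        obtain ⟨u, Z, lam, hZ, hcon, hlam, hen⟩ := HU (fun _ => 1) 0
        have h1 := key0G hρ hZ hp hcon hs hA₁ hA hb (fun i j x => by
          have := eb i j x
          rwa [pow_zero, one_mul] at this) hlam hen
        rw [hquad hp, hE1] at h1
        -- the size of `ζ`
        have hb1 := beta_sq (hss p) z1 z2
        have hg1 := abs_le.1 (hnear p (gd ρ p))
        have hτ2 := abs_le.1 (hnear p τ)
        rw [hτ1] at hτ2
        have hb2 : ‖β‖ ^ 2 * ∑ i, gd ρ p i ^ 2 ≤ 4 := by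
          have h2 : ∑ i, gd ρ p i ^ 2 ≤ 2 * Sf (s p) (gd ρ p) (gd ρ p) := by linarith
          calc ‖β‖ ^ 2 * ∑ i, gd ρ p i ^ 2 ≤ ‖β‖ ^ 2 * (2 * Sf (s p) (gd ρ p) (gd ρ p)) := by
                gcongr
            _ = 2 * Sf (s p) τ τ := by rw [← hb1]; ring
            _ ≤ 4 := by linarith
        have h2 : ∑ j, zt ρ p τ β j * star (zt ρ p τ β j) =
            ((∑ j, ‖zt ρ p τ β j‖ ^ 2 : ℝ) : ℂ) := by
          push_cast
          refine Finset.sum_congr rfl fun j _ => ?_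
          rw [show star (zt ρ p τ β j) = (starRingEnd ℂ) (zt ρ p τ β j) from rfl,
            Complex.mul_conj, Complex.normSq_eq_norm_sq]
          push_cast
          rfl
        have h3 : ∑ j, ‖zt ρ p τ β j‖ ^ 2 ≤ 10 := by
          have h4 : ∀ j, ‖zt ρ p τ β j‖ ^ 2 ≤ 2 * τ j ^ 2 + 2 * (‖β‖ ^ 2 * gd ρ p j ^ 2) := by
            intro j
            have b1 : ‖zt ρ p τ β j‖ ≤ |τ j| + ‖β‖ * |gd ρ p j| := by
              refine (norm_add_le _ _).trans (le_of_eq ?_)
              rw [norm_mul, norm_mul, Complex.norm_I, Complex.norm_real, Complex.norm_real,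
                one_mul, Real.norm_eq_abs, Real.norm_eq_abs]
              rfl
            have b2 : ‖zt ρ p τ β j‖ ^ 2 ≤ (|τ j| + ‖β‖ * |gd ρ p j|) ^ 2 :=
              pow_le_pow_left₀ (norm_nonneg _) b1 2
            have b3 : (|τ j| + ‖β‖ * |gd ρ p j|) ^ 2 ≤
                2 * |τ j| ^ 2 + 2 * (‖β‖ * |gd ρ p j|) ^ 2 := by
              nlinarith [sq_nonneg (|τ j| - ‖β‖ * |gd ρ p j|)]
            have b4 : (‖β‖ * |gd ρ p j|) ^ 2 = ‖β‖ ^ 2 * gd ρ p j ^ 2 := by
              rw [mul_pow, sq_abs]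
            rw [b4, sq_abs] at b3
            exact b2.trans b3
          calc ∑ j, ‖zt ρ p τ β j‖ ^ 2 ≤ ∑ j, (2 * τ j ^ 2 + 2 * (‖β‖ ^ 2 * gd ρ p j ^ 2)) :=
                Finset.sum_le_sum fun j _ => h4 j
            _ = 2 * ∑ j, τ j ^ 2 + 2 * (‖β‖ ^ 2 * ∑ j, gd ρ p j ^ 2) := by
                rw [Finset.sum_add_distrib, Finset.mul_sum, Finset.mul_sum, Finset.mul_sum]
            _ ≤ 10 := by rw [hτ1]; linarith
        rw [h2, norm_mul, norm_mul, norm_mul, Complex.norm_real, Complex.norm_real,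
          Complex.norm_real, Complex.norm_natCast, Real.norm_eq_abs, Real.norm_eq_abs,
          Real.norm_eq_abs] at h1
        have h5 : 0 ≤ ∑ i, ∑ j, b i j p ^ 2 :=
          Finset.sum_nonneg fun i _ => Finset.sum_nonneg fun j _ => sq_nonneg _
        have h6 : 0 ≤ ∑ j, ‖zt ρ p τ β j‖ ^ 2 := Finset.sum_nonneg fun j _ => sq_nonneg _
        rw [abs_of_nonneg h5, abs_of_nonneg h6] at h1
        rw [pow_zero, one_mul]
        have h7 : |∑ i, ∑ j, b i j p * (τ i * τ j)| * N ≤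
            (10 * C * ∑ i, ∑ j, b i j p ^ 2) * N := by
          refine h1.trans ?_
          have h8 : (∑ i, ∑ j, b i j p ^ 2) * (∑ j, ‖zt ρ p τ β j‖ ^ 2) ≤
              (∑ i, ∑ j, b i j p ^ 2) * 10 := mul_le_mul_of_nonneg_left h3 h5
          calc C * ((∑ i, ∑ j, b i j p ^ 2) * (∑ j, ‖zt ρ p τ β j‖ ^ 2) * N) ≤
                C * ((∑ i, ∑ j, b i j p ^ 2) * 10 * N) := by gcongr
            _ = (10 * C * ∑ i, ∑ j, b i j p ^ 2) * N := by ring
        exact le_of_mul_le_mul_right h7 hN0'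
      · obtain ⟨β, -, h0⟩ := stepS _ hm hp τ hτ1 hτg
        have h1 := (h0 (fun _ => 1)).1
        rw [hE1] at h1
        have h2 := (mul_eq_zero.1 h1).resolve_right hN0
        have h3 : ∑ i, ∑ j, b i j p * (τ i * τ j) = 0 := by exact_mod_cast h2
        rw [h3, abs_zero, hm, hp]
        simp
  intro p hp
  refine ⟨hb0 p hp, ?_⟩
  rcases Nat.eq_zero_or_eq_succ_pred m with hm | hm
  · intro i
    subst hm
    have h1 := ea i p
    rw [hp, pow_zero] at h1
    simpa using h1.symm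
  · refine alg_aG (hspd p) (hgp hp) (haν p hp) fun τ hτ1 hτg => ?_
    obtain ⟨β, z1, h0⟩ := stepS _ hm hp τ hτ1 hτg
    exact ⟨β, z1, fun η => (h0 η).2⟩

end Vale.Agent.P088.PJ.Bd.H281
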